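import Mathlib

/-! Gaussian lemmas: resampling a coordinate, one-row slab bound, tails. -/

open MeasureTheory ProbabilityTheory Set Filter Topology
open scoped RealInnerProductSpace ENNReal

set_option linter.unusedSectionVars false

namespace Vale.Agent.P309

variable {E : Type*} [NormedAddCommGroup E] [InnerProductSpace ℝ E] [FiniteDimensional ℝ E]
  [MeasurableSpace E] [BorelSpace E]

lemma lintegral_pi_prod {α : Type*} [MeasurableSpace α] (μ : Measure α) [SigmaFinite μ] {n : ℕ}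
    (f : Fin n → α → ℝ≥0∞) (hf : ∀ i, Measurable (f i)) :
    ∫⁻ x : Fin n → α, ∏ i, f i (x i) ∂(Measure.pi fun _ => μ) = ∏ i, ∫⁻ x, f i x ∂μ := by
  induction n with
  | zero => simp
  | succ n ih =>
    rw [← ((measurePreserving_piFinSuccAbove (fun _ : Fin (n + 1) => μ) 0).symm).lintegral_comp_emb
      (MeasurableEquiv.measurableEmbedding _)]
    simp_rw [MeasurableEquiv.piFinSuccAbove_symm_apply, Fin.insertNthEquiv,
      Fin.prod_univ_succ, Fin.insertNth_zero, Equiv.coe_fn_mk, Fin.cons_succ,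
      cast_eq, Fin.cons_zero]
    rw [lintegral_prod_mul (f := f 0) (g := fun x : Fin n → α => ∏ i, f i.succ (x i))
      (hf 0).aemeasurable
      (Finset.measurable_prod _ fun i _ => (hf _).comp (measurable_pi_apply i)).aemeasurable,
      ih _ fun i => hf _]

/-- replace the coordinate along `e` by a fresh value -/
def resamp (e : E) (p : E × ℝ) : E := p.1 + (p.2 - ⟪e, p.1⟫) • e

lemma continuous_resamp (e : E) : Continuous (resamp e) := by unfold resamp; fun_prop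

lemma inner_resamp (e u : E) (p : E × ℝ) :
    ⟪u, resamp e p⟫ = ⟪u, p.1⟫ + (p.2 - ⟪e, p.1⟫) * ⟪u, e⟫ := by
  simp [resamp, inner_add_right, inner_smul_right]

lemma measurePreserving_resamp {e : E} (he : ‖e‖ = 1) :
    MeasurePreserving (resamp e) ((stdGaussian E).prod (gaussianReal 0 1)) (stdGaussian E) := by
  refine ⟨(continuous_resamp e).measurable, Measure.ext_of_charFun ?_⟩
  ext t
  rw [charFun_apply, integral_map (continuous_resamp e).measurable.aemeasurable (by fun_prop)]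
  have h1 : ∀ p : E × ℝ, Complex.exp (⟪resamp e p, t⟫ * Complex.I) =
      Complex.exp (⟪p.1, t - ⟪t, e⟫ • e⟫ * Complex.I) *
        Complex.exp (⟪t, e⟫ * p.2 * Complex.I) := by
    intro p
    rw [← Complex.exp_add, ← add_mul, real_inner_comm, inner_resamp, inner_sub_right,
      inner_smul_right, real_inner_comm p.1 t, real_inner_comm p.1 e]
    push_cast
    congr 2
    ring
  simp_rw [h1]
  rw [integral_prod_mul (f := fun x : E => Complex.exp (⟪x, t - ⟪t, e⟫ • e⟫ * Complex.I))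
    (g := fun g : ℝ => Complex.exp (⟪t, e⟫ * g * Complex.I)), ← charFun_apply,
    ← charFun_apply_real, charFun_stdGaussian, charFun_gaussianReal, charFun_stdGaussian,
    ← Complex.exp_add]
  congr 1
  have h2 : ‖t - ⟪t, e⟫ • e‖ ^ 2 = ‖t‖ ^ 2 - ⟪t, e⟫ ^ 2 := by
    rw [norm_sub_sq_real, inner_smul_right, norm_smul, he, Real.norm_eq_abs, mul_one, sq_abs]
    ring
  have h3 : ((‖t - ⟪t, e⟫ • e‖ : ℝ) : ℂ) ^ 2 = (‖t‖ : ℂ) ^ 2 - (⟪t, e⟫ : ℝ) ^ 2 := by
    exact_mod_cast h2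
  rw [h3]
  push_cast
  ring

lemma gauss_le_volume : gaussianReal 0 1 ≤ (volume : Measure ℝ) := by
  rw [gaussianReal_of_var_ne_zero 0 one_ne_zero]
  conv_rhs => rw [← withDensity_one (μ := volume)]
  refine withDensity_mono (ae_of_all _ fun x => ?_)
  simp only [gaussianPDF, gaussianPDFReal, Pi.one_apply, ENNReal.ofReal_le_one]
  have h1 : (√(2 * Real.pi * ((1 : NNReal) : ℝ)))⁻¹ ≤ 1 := by
    refine inv_le_one_of_one_le₀ (Real.one_le_sqrt.2 ?_)
    have := Real.pi_gt_three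
    simp; linarith
  have h2 : Real.exp (-(x - 0) ^ 2 / (2 * ((1 : NNReal) : ℝ))) ≤ 1 := by
    rw [Real.exp_le_one_iff]
    have := sq_nonneg (x - 0)
    simp only [NNReal.coe_one]
    linarith
  exact mul_le_one₀ h1 (Real.exp_pos _).le h2

lemma slab_one {κ : ℝ → ℝ≥0∞} (hκ : Measurable κ) (h1 : ∫⁻ z, κ z ≤ 1) (c : ℝ) {D : ℝ}
    (hD : 0 < D) : ∫⁻ g, κ (c - g * D) ∂gaussianReal 0 1 ≤ (ENNReal.ofReal D)⁻¹ := by
  refine (lintegral_mono' gauss_le_volume le_rfl).trans ?_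
  have e : ∫⁻ g, κ (c - g * D) = ∫⁻ z, κ (c + z) ∂(Measure.map (fun g => -D * g) volume) := by
    rw [lintegral_map (by fun_prop) (by fun_prop)]
    congr 1; funext g; congr 1; ring
  rw [e, Real.map_volume_mul_left (by linarith), lintegral_smul_measure,
    lintegral_add_left_eq_self, abs_inv, abs_neg, abs_of_pos hD, ENNReal.ofReal_inv_of_pos hD]
  exact mul_le_of_le_one_right' h1

lemma row_bound {F : E → ℝ≥0∞} (hF : Measurable F) {u v : E} (hu : ‖u‖ = 1)
    (hinv : ∀ x (τ : ℝ), F (x + τ • u) = F x) {D : ℝ} (hD : 0 < D) (huv : ⟪v, u⟫ = D)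
    {κ : ℝ → ℝ≥0∞} (hκ : Measurable κ) (h1 : ∫⁻ z, κ z ≤ 1) (z : ℝ) :
    ∫⁻ x, κ (z - ⟪x, v⟫) * F x ∂stdGaussian E ≤
      (ENNReal.ofReal D)⁻¹ * ∫⁻ x, F x ∂stdGaussian E := by
  have hm : Measurable fun x : E => κ (z - ⟪x, v⟫) * F x := by fun_prop
  rw [← (measurePreserving_resamp hu).lintegral_comp hm,
    lintegral_prod (fun a : E × ℝ => κ (z - ⟪resamp u a, v⟫) * F (resamp u a))
      (hm.comp (continuous_resamp u).measurable).aemeasurable,
    ← lintegral_const_mul _ hF]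
  refine lintegral_mono fun x => ?_
  have e : ∀ g : ℝ, κ (z - ⟪resamp u (x, g), v⟫) * F (resamp u (x, g)) =
      κ ((z - ⟪v, x⟫ + ⟪u, x⟫ * D) - g * D) * F x := by
    intro g
    rw [real_inner_comm, inner_resamp, huv, resamp, hinv]
    congr 2; ring
  simp only [e]
  rw [lintegral_mul_const _ (by fun_prop)]
  exact mul_le_mul_left (slab_one hκ h1 _ hD) _

lemma mgf_inner (v : E) (t : ℝ) :
    ∫⁻ x, ENNReal.ofReal (Real.exp (t * ⟪x, v⟫)) ∂stdGaussian E =
      ENNReal.ofReal (Real.exp (‖v‖ ^ 2 * t ^ 2 / 2)) := by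
  have h := IsGaussian.map_eq_gaussianReal (μ := stdGaussian E) (innerSL ℝ v)
  rw [integral_strongDual_stdGaussian, variance_dual_stdGaussian, innerSL_apply_norm] at h
  have e : ∫⁻ x, ENNReal.ofReal (Real.exp (t * ⟪x, v⟫)) ∂stdGaussian E =
      ∫⁻ y, ENNReal.ofReal (Real.exp (t * y)) ∂(stdGaussian E).map (innerSL ℝ v) := by
    rw [lintegral_map (by fun_prop) (by fun_prop)]
    simp [real_inner_comm]
  rw [e, h, ← ofReal_integral_eq_lintegral_ofReal (integrable_exp_mul_gaussianReal t)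
    (ae_of_all _ fun _ => (Real.exp_pos _).le)]
  have := congrFun (mgf_fun_id_gaussianReal (μ := 0) (v := (‖v‖ ^ 2).toNNReal)) t
  simp only [mgf] at this
  rw [this]
  simp

lemma abs_mgf {v : E} {a : ℝ} (ha : 0 < a) (hv : ‖v‖ ≤ a) :
    ∫⁻ x, ENNReal.ofReal (Real.exp (|⟪x, v⟫| / a - 3)) ∂stdGaussian E ≤ 2⁻¹ := by
  have h1 : ∀ x : E, ENNReal.ofReal (Real.exp (|⟪x, v⟫| / a - 3)) ≤ ENNReal.ofReal (Real.exp (-3)) *
      (ENNReal.ofReal (Real.exp (a⁻¹ * ⟪x, v⟫)) + ENNReal.ofReal (Real.exp (-a⁻¹ * ⟪x, v⟫))) := by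
    intro x
    rw [← ENNReal.ofReal_add (Real.exp_pos _).le (Real.exp_pos _).le,
      ← ENNReal.ofReal_mul (Real.exp_pos _).le]
    refine ENNReal.ofReal_le_ofReal ?_
    rw [sub_eq_neg_add, Real.exp_add]
    refine mul_le_mul_of_nonneg_left ?_ (Real.exp_pos _).le
    have p1 := Real.exp_pos (a⁻¹ * ⟪x, v⟫)
    have p2 := Real.exp_pos (-a⁻¹ * ⟪x, v⟫)
    rcases abs_cases ⟪x, v⟫ with h | h
    · rw [h.1, div_eq_inv_mul]; linarith
    · rw [h.1, show -⟪x, v⟫ / a = -a⁻¹ * ⟪x, v⟫ by ring]; linarith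
  refine (lintegral_mono h1).trans ?_
  rw [lintegral_const_mul _ (by fun_prop), lintegral_add_left (by fun_prop), mgf_inner, mgf_inner,
    ← ENNReal.ofReal_add (Real.exp_pos _).le (Real.exp_pos _).le,
    ← ENNReal.ofReal_mul (Real.exp_pos _).le, ← ENNReal.ofReal_ofNat 2,
    ← ENNReal.ofReal_inv_of_pos two_pos]
  refine ENNReal.ofReal_le_ofReal ?_
  have h2 : ‖v‖ ^ 2 * a⁻¹ ^ 2 / 2 ≤ 1 / 2 := by
    have : ‖v‖ * a⁻¹ ≤ 1 := by rw [← div_eq_mul_inv]; exact (div_le_one ha).2 hv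
    have h0 : 0 ≤ ‖v‖ * a⁻¹ := by positivity
    rw [← mul_pow]
    nlinarith
  rw [neg_sq, ← two_mul, mul_left_comm, ← Real.exp_add]
  have h3 : Real.exp (-3 + ‖v‖ ^ 2 * a⁻¹ ^ 2 / 2) ≤ Real.exp (-2) :=
    Real.exp_le_exp.2 (by linarith)
  have h4 : Real.exp (-2) ≤ 1 / 4 := by
    have e : Real.exp (-2) = (Real.exp 1 * Real.exp 1)⁻¹ := by
      rw [← Real.exp_add, ← Real.exp_neg]; norm_num
    have := Real.exp_one_gt_d9
    rw [e, one_div]
    exact inv_anti₀ (by norm_num) (by nlinarith)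
  linarith

lemma tail_bound (k : ℕ) {v : E} {a : ℝ} (ha : 0 < a) (hv : ‖v‖ ≤ a) :
    (Measure.pi fun _ : Fin k => stdGaussian E) {X | 3 * k * a < ∑ r, |⟪X r, v⟫|} ≤ 2⁻¹ ^ k := by
  have hm : MeasurableSet {X : Fin k → E | 3 * k * a < ∑ r, |⟪X r, v⟫|} :=
    measurableSet_lt (by fun_prop) (by fun_prop)
  rw [← lintegral_indicator_one hm]
  calc _ ≤ ∫⁻ X : Fin k → E, ∏ r, ENNReal.ofReal (Real.exp (|⟪X r, v⟫| / a - 3))
        ∂(Measure.pi fun _ => stdGaussian E) := by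
        refine lintegral_mono fun X => ?_
        by_cases h : X ∈ {X : Fin k → E | 3 * k * a < ∑ r, |⟪X r, v⟫|}
        · rw [indicator_of_mem h, ← ENNReal.ofReal_prod_of_nonneg fun _ _ => (Real.exp_pos _).le,
            ← Real.exp_sum, Pi.one_apply, ENNReal.one_le_ofReal, Real.one_le_exp_iff,
            Finset.sum_sub_distrib, ← Finset.sum_div]
          have : 3 * k ≤ (∑ r, |⟪X r, v⟫|) / a := (le_div_iff₀ ha).2 (le_of_lt h)
          simp only [Finset.sum_const, Finset.card_univ, Fintype.card_fin, nsmul_eq_mul]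
          linarith
        · rw [indicator_of_notMem h]; exact zero_le
    _ = ∏ _r : Fin k, ∫⁻ x, ENNReal.ofReal (Real.exp (|⟪x, v⟫| / a - 3)) ∂stdGaussian E :=
        lintegral_pi_prod _ (fun _ x => ENNReal.ofReal (Real.exp (|⟪x, v⟫| / a - 3)))
          fun _ => by fun_prop
    _ ≤ 2⁻¹ ^ k := by
        rw [Finset.prod_const, Finset.card_univ, Fintype.card_fin]
        exact pow_le_pow_left' (abs_mgf ha hv) k

end Vale.Agent.P309
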