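import Vale.Agent.P309.Replica

/-! Cells, tubes and their masses. -/

open MeasureTheory ProbabilityTheory Set Filter Topology Module Metric
open scoped RealInnerProductSpace ENNReal Pointwise

set_option linter.unusedSectionVars false

namespace Vale.Agent.P309

/-- Euclidean space -/
abbrev Ed (d : ℕ) := EuclideanSpace ℝ (Fin d)

variable {d : ℕ}

/-- index of the level `t` cell of a point -/
noncomputable def cell (t : ℕ) (s : Ed d) : Fin d → ℤ :=
  fun i => if t = 0 then 0 else ⌊2 ^ t * √d * s i⌋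

/-- the level `t` cell of a point -/
def Cs (t : ℕ) (s : Ed d) : Set (Ed d) := {x | cell t x = cell t s}

lemma measurable_cell (t : ℕ) : Measurable (cell t : Ed d → Fin d → ℤ) := by
  refine measurable_pi_lambda _ fun i => ?_
  unfold cell
  split_ifs
  · exact measurable_const
  · exact Int.measurable_floor.comp (by fun_prop)

lemma measurableSet_Cs (t : ℕ) (s : Ed d) : MeasurableSet (Cs t s) :=
  measurable_cell t (measurableSet_singleton _)

lemma measurableSet_same (t : ℕ) : MeasurableSet {q : Ed d × Ed d | cell t q.2 = cell t q.1} :=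
  measurableSet_eq_fun ((measurable_cell t).comp measurable_snd)
    ((measurable_cell t).comp measurable_fst)

lemma Cs_zero (s : Ed d) : Cs 0 s = univ := by
  ext x; simp [Cs, cell, funext_iff]

lemma cell_diam (hd : d ≠ 0) {t : ℕ} (ht : t ≠ 0) {x s : Ed d} (h : cell t x = cell t s) :
    ‖x - s‖ ≤ 2⁻¹ ^ t := by
  have hd' : (0 : ℝ) < d := by positivity
  have hc : ∀ i, (x i - s i) ^ 2 ≤ (2⁻¹ ^ t) ^ 2 / d := by
    intro i
    have h1 := congrFun h i
    simp only [cell, ht, if_false] at h1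
    have h2 := Int.abs_sub_lt_one_of_floor_eq_floor h1
    rw [← mul_sub] at h2
    have h3 : (2 ^ t * √d * (x i - s i)) ^ 2 ≤ 1 := by
      rw [← sq_abs]; exact pow_le_one₀ (abs_nonneg _) h2.le
    rw [mul_pow, mul_pow, Real.sq_sqrt hd'.le] at h3
    rw [le_div_iff₀ hd', inv_pow, inv_pow, ← one_div, le_div_iff₀ (by positivity)]
    linarith
  refine le_of_sq_le_sq ?_ (by positivity)
  rw [EuclideanSpace.norm_sq_eq]
  calc _ ≤ ∑ _i : Fin d, ((2⁻¹ : ℝ) ^ t) ^ 2 / d := Finset.sum_le_sum fun i _ => by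
        simpa using hc i
    _ = _ := by simp; field_simp

lemma cell_vol (hd : d ≠ 0) {t : ℕ} (ht : t ≠ 0) (s : Ed d) :
    ENNReal.ofReal (2⁻¹ ^ t / √d) ^ d ≤ volume (Cs t s) := by
  have hd' : (0 : ℝ) < √d := by positivity
  set c : ℝ := 2 ^ t * √d with hc
  have hc0 : 0 < c := by positivity
  rw [← (PiLp.volume_preserving_toLp (Fin d)).measure_preimage
    (measurableSet_Cs t s).nullMeasurableSet]
  have hsub : (univ.pi fun i => Ico ((⌊c * s i⌋ : ℝ) / c) ((⌊c * s i⌋ + 1) / c)) ⊆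
      WithLp.toLp 2 ⁻¹' Cs t s := by
    intro x hx
    funext i
    have := hx i trivial
    simp only [cell, ht, if_false]
    rw [Int.floor_eq_iff]
    constructor
    · have := (div_le_iff₀ hc0).1 this.1; linarith
    · have := (lt_div_iff₀ hc0).1 this.2; linarith
  refine le_trans (le_of_eq ?_) (measure_mono hsub)
  rw [Real.volume_pi_Ico, Finset.prod_congr rfl (g := fun _ => ENNReal.ofReal (2⁻¹ ^ t / √d))]
  · simp
  · intro i _
    congr 1
    rw [hc]; field_simp
    rw [← mul_pow]; simp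

lemma ball_vol (hd : d ≠ 0) (x : Ed d) {a : ℝ} (ha : 0 ≤ a) :
    volume (closedBall x a) ≤ ENNReal.ofReal (a / √d) ^ d * 5 ^ d := by
  have hd' : (0 : ℝ) < √d := by positivity
  have e : a = a / √d * √d := by field_simp
  conv_lhs => rw [e]
  rw [Measure.addHaar_closedBall_mul _ _ (by positivity) hd'.le, finrank_euclideanSpace_fin,
    ENNReal.ofReal_pow (by positivity)]
  refine mul_le_mul_right ?_ _
  have hm : MeasurableSet (WithLp.toLp 2 ⁻¹' closedBall (0 : Ed d) √d) :=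
    (PiLp.volume_preserving_toLp (Fin d)).measurable measurableSet_closedBall
  rw [← (PiLp.volume_preserving_toLp (Fin d)).measure_preimage
    measurableSet_closedBall.nullMeasurableSet, ← lintegral_indicator_one hm]
  calc _ ≤ ∫⁻ x : Fin d → ℝ, ∏ i, ENNReal.ofReal (Real.exp 1 * Real.exp (-1 * x i ^ 2)) := by
        refine lintegral_mono fun x => ?_
        by_cases h : x ∈ WithLp.toLp 2 ⁻¹' closedBall (0 : Ed d) √d
        · rw [indicator_of_mem h, ← ENNReal.ofReal_prod_of_nonneg fun _ _ => by positivity]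
          simp_rw [← Real.exp_add]
          rw [← Real.exp_sum, Pi.one_apply, ENNReal.one_le_ofReal, Real.one_le_exp_iff,
            Finset.sum_add_distrib, ← Finset.mul_sum]
          have h1 : ‖(WithLp.toLp 2 x : Ed d)‖ ^ 2 ≤ d := by
            have : ‖(WithLp.toLp 2 x : Ed d)‖ ≤ √d := by simpa using h
            calc _ ≤ √d ^ 2 := pow_le_pow_left₀ (norm_nonneg _) this 2
              _ = _ := Real.sq_sqrt (by positivity)
          rw [EuclideanSpace.norm_sq_eq] at h1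
          simp only [Real.norm_eq_abs, sq_abs] at h1
          simp only [Finset.sum_const, Finset.card_univ, Fintype.card_fin, nsmul_eq_mul]
          linarith
        · rw [indicator_of_notMem h]; exact zero_le
    _ = ∏ _i : Fin d, ∫⁻ x : ℝ, ENNReal.ofReal (Real.exp 1 * Real.exp (-1 * x ^ 2)) :=
        lintegral_pi_prod volume
          (fun _ x => ENNReal.ofReal (Real.exp 1 * Real.exp (-1 * x ^ 2))) fun _ => by fun_prop
    _ ≤ 5 ^ d := by
        rw [Finset.prod_const, Finset.card_univ, Fintype.card_fin]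
        refine pow_le_pow_left' ?_ d
        rw [← ofReal_integral_eq_lintegral_ofReal
          ((integrable_exp_neg_mul_sq one_pos).const_mul _) (ae_of_all _ fun _ => by positivity),
          integral_const_mul, integral_gaussian, ← ENNReal.ofReal_ofNat 5]
        refine ENNReal.ofReal_le_ofReal ?_
        have h1 := Real.exp_one_lt_d9
        have h2 : √(Real.pi / 1) ≤ 1.8 := by
          rw [Real.sqrt_le_left (by norm_num)]
          have := Real.pi_lt_d2
          linarith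
        nlinarith [Real.exp_pos 1, Real.sqrt_nonneg (Real.pi / 1)]

lemma tube_vol (W : Submodule ℝ (Ed d)) {k : ℕ} (hW : finrank ℝ W ≤ k) (s0 : Ed d) {a l : ℝ}
    (hl : 1 ≤ l) :
    volume {x : Ed d | ‖x - s0‖ ≤ l * a ∧ dperp W (x - s0) ≤ a} ≤
      ENNReal.ofReal l ^ k * volume (closedBall (0 : Ed d) (2 * a)) := by
  have hl0 : 0 < l := by linarith
  let e := W.prodEquivOfIsCompl Wᗮ W.isCompl_orthogonal
  let L : Ed d →ₗ[ℝ] Ed d := (e : W × Wᗮ →ₗ[ℝ] Ed d) ∘ₗ
    (LinearMap.prodMap (l • LinearMap.id) LinearMap.id) ∘ₗ (e.symm : Ed d →ₗ[ℝ] W × Wᗮ)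
  have hdet : LinearMap.det L = l ^ finrank ℝ W := by
    rw [LinearMap.det_conj, LinearMap.det_prodMap, LinearMap.det_smul]; simp
  have hsub : {x : Ed d | ‖x - s0‖ ≤ l * a ∧ dperp W (x - s0) ≤ a} ⊆
      (fun x => x - s0) ⁻¹' (L '' closedBall 0 (2 * a)) := by
    rintro x ⟨h1, h2⟩
    set v := x - s0
    refine ⟨e (l⁻¹ • W.orthogonalProjection v, Wᗮ.orthogonalProjection v), ?_, ?_⟩
    · rw [mem_closedBall_zero_iff, Submodule.coe_prodEquivOfIsCompl']
      refine (norm_add_le _ _).trans ?_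
      have h3 : ‖W.starProjection v‖ ≤ l * a := (W.norm_starProjection_apply_le v).trans h1
      have h4 : ‖l⁻¹ • W.starProjection v‖ ≤ a := by
        rw [norm_smul, Real.norm_eq_abs, abs_of_pos (inv_pos.2 hl0), inv_mul_le_iff₀ hl0]
        exact h3
      have h5 : ‖Wᗮ.starProjection v‖ ≤ a := h2
      have := add_le_add h4 h5
      rw [two_mul]
      exact this
    · simp only [L, LinearMap.comp_apply, LinearEquiv.coe_coe, LinearEquiv.symm_apply_apply,
        LinearMap.prodMap_apply, LinearMap.smul_apply, LinearMap.id_apply, smul_smul,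
        mul_inv_cancel₀ hl0.ne', one_smul]
      rw [Submodule.coe_prodEquivOfIsCompl']
      exact W.starProjection_add_starProjection_orthogonal v
  refine (measure_mono hsub).trans ?_
  simp only [sub_eq_add_neg]
  rw [measure_preimage_add_right, Measure.addHaar_image_linearMap, hdet,
    abs_of_pos (by positivity), ENNReal.ofReal_pow hl0.le]
  exact mul_le_mul_left (pow_le_pow_right₀ (ENNReal.one_le_ofReal.2 hl) hW) _

lemma cell_count (hd : d ≠ 0) {t : ℕ} (ht : t ≠ 0) (ν : Measure (Ed d)) [IsFiniteMeasure ν]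
    {ρ : ℝ≥0∞} (hρ : ∀ᵐ s ∂ν, ν (Cs t s) ≤ ρ) {A A' : Set (Ed d)} (hA : MeasurableSet A)
    (hA' : MeasurableSet A') (hAA : ∀ s ∈ A, ∀ x, ‖x - s‖ ≤ 2⁻¹ ^ t → x ∈ A') :
    ENNReal.ofReal (2⁻¹ ^ t / √d) ^ d * ν A ≤ ρ * volume A' := by
  have hS : MeasurableSet ((A ×ˢ univ) ∩ {q : Ed d × Ed d | cell t q.2 = cell t q.1}) :=
    (hA.prod .univ).inter (measurableSet_same t)
  calc _ = ∫⁻ s, A.indicator (fun _ => ENNReal.ofReal (2⁻¹ ^ t / √d) ^ d) s ∂ν := by
        rw [lintegral_indicator hA, setLIntegral_const]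
    _ ≤ (ν.prod volume) ((A ×ˢ univ) ∩ {q : Ed d × Ed d | cell t q.2 = cell t q.1}) := by
        rw [Measure.prod_apply hS]
        refine lintegral_mono fun s => ?_
        by_cases h : s ∈ A
        · rw [indicator_of_mem h]
          exact (cell_vol hd ht s).trans (measure_mono fun x hx => ⟨⟨h, trivial⟩, hx⟩)
        · rw [indicator_of_notMem h]; exact zero_le
    _ ≤ ∫⁻ x, A'.indicator (fun _ => ρ) x := by
        rw [Measure.prod_apply_symm hS]
        refine lintegral_mono fun x => ?_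
        by_contra h
        rw [not_le] at h
        obtain ⟨s, hs, hs2⟩ := Measure.exists_mem_of_measure_ne_zero_of_ae
          (ne_zero_of_lt h) (ae_restrict_of_ae hρ)
        have hx : x ∈ A' := hAA s hs.1.1 x (cell_diam hd ht hs.2)
        rw [indicator_of_mem hx] at h
        refine h.not_ge (le_trans (measure_mono fun y hy => ?_) hs2)
        exact hy.2.symm.trans hs.2
    _ = _ := by rw [lintegral_indicator hA', setLIntegral_const]

lemma measurableSet_tube (W : Submodule ℝ (Ed d)) (s0 : Ed d) (a b : ℝ) :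
    MeasurableSet {s : Ed d | ‖s - s0‖ ≤ a ∧ dperp W (s - s0) ≤ b} := by
  have hc := (continuous_dperp W).measurable
  have h1 : MeasurableSet {s : Ed d | ‖s - s0‖ ≤ a} := measurableSet_le (by fun_prop) measurable_const
  have h2 : MeasurableSet {s : Ed d | dperp W (s - s0) ≤ b} :=
    measurableSet_le (by fun_prop) measurable_const
  exact h1.inter h2

lemma tube_mass (hd : d ≠ 0) (ν : Measure (Ed d)) [IsFiniteMeasure ν] (t0 i : ℕ)
    {ρ : ℝ≥0∞} (hρ : ∀ᵐ s ∂ν, ν (Cs (t0 + i) s) ≤ ρ) (W : Submodule ℝ (Ed d)) {k : ℕ}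
    (hW : finrank ℝ W ≤ k) (s0 : Ed d) :
    ν {s | ‖s - s0‖ ≤ 2 * 2⁻¹ ^ t0 ∧ dperp W (s - s0) ≤ 2⁻¹ ^ (t0 + i)} ≤
      ρ * 2 ^ ((i + 1) * k + 5 * d) := by
  by_cases ht : t0 + i = 0
  · by_contra h
    rw [not_le] at h
    obtain ⟨s, -, hs2⟩ := Measure.exists_mem_of_measure_ne_zero_of_ae
      (ne_zero_of_lt h) (ae_restrict_of_ae hρ)
    rw [ht, Cs_zero] at hs2
    exact h.not_ge (((measure_mono (subset_univ _)).trans hs2).trans
      (le_mul_of_one_le_right' (one_le_pow₀ one_le_two)))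
  have hd' : (0 : ℝ) < √d := by positivity
  have h1 := cell_count hd ht ν hρ
    (A := {s | ‖s - s0‖ ≤ 2 * 2⁻¹ ^ t0 ∧ dperp W (s - s0) ≤ 2⁻¹ ^ (t0 + i)})
    (A' := {x | ‖x - s0‖ ≤ 2 ^ (i + 1) * (2 * 2⁻¹ ^ (t0 + i)) ∧
      dperp W (x - s0) ≤ 2 * 2⁻¹ ^ (t0 + i)})
    (measurableSet_tube _ _ _ _) (measurableSet_tube _ _ _ _) (by
      rintro s ⟨h1, h2⟩ x hx
      have e : x - s0 = (x - s) + (s - s0) := by abel
      constructor
      · have h3 : (2⁻¹ : ℝ) ^ (t0 + i) ≤ 2⁻¹ ^ t0 :=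
          pow_le_pow_of_le_one (by norm_num) (by norm_num) (Nat.le_add_right _ _)
        have h4 : (2 : ℝ) ^ (i + 1) * (2 * 2⁻¹ ^ (t0 + i)) = 4 * 2⁻¹ ^ t0 := by
          rw [pow_add, pow_add, inv_pow 2 i]; field_simp; norm_num
        have h5 := norm_add_le (x - s) (s - s0)
        have h6 : (0 : ℝ) ≤ 2⁻¹ ^ t0 := by positivity
        rw [h4, e]; linarith
      · have h5 := norm_add_le (Wᗮ.starProjection (x - s)) (Wᗮ.starProjection (s - s0))
        have h6 := Wᗮ.norm_starProjection_apply_le (x - s)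
        unfold dperp at h2 ⊢
        rw [e, map_add]; linarith)
  have h2 := tube_vol W hW s0 (a := 2 * 2⁻¹ ^ (t0 + i)) (l := 2 ^ (i + 1))
    (one_le_pow₀ one_le_two)
  have h3 := ball_vol hd (0 : Ed d) (a := 2 * (2 * 2⁻¹ ^ (t0 + i))) (by positivity)
  have hne : ENNReal.ofReal (2⁻¹ ^ (t0 + i) / √d) ^ d ≠ 0 :=
    pow_ne_zero _ (ENNReal.ofReal_pos.2 (by positivity)).ne'
  rw [← ENNReal.mul_le_mul_iff_right hne (ENNReal.pow_ne_top ENNReal.ofReal_ne_top)]
  refine h1.trans ((mul_le_mul_right (h2.trans (mul_le_mul_right h3 _)) _).trans ?_)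
  rw [show 2 * (2 * 2⁻¹ ^ (t0 + i)) / √d = 4 * ((2⁻¹ : ℝ) ^ (t0 + i) / √d) by ring,
    ENNReal.ofReal_mul (by norm_num), ENNReal.ofReal_pow (by norm_num), ENNReal.ofReal_ofNat,
    ENNReal.ofReal_ofNat, mul_pow, pow_add (2 : ℝ≥0∞) ((i + 1) * k), pow_mul, pow_mul]
  set h := ENNReal.ofReal (2⁻¹ ^ (t0 + i) / √d) ^ d
  calc ρ * ((2 ^ (i + 1)) ^ k * (4 ^ d * h * 5 ^ d)) = h * (ρ * ((2 ^ (i + 1)) ^ k * (4 * 5) ^ d)) := by
        rw [mul_pow]; ring
    _ ≤ _ := by gcongr; norm_num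

/-- uniform probability measure on the unit sphere -/
noncomputable def unif (d : ℕ) : Measure (sphere (0 : Ed d) 1) :=
  ((volume : Measure (Ed d)).toSphere univ)⁻¹ • (volume : Measure (Ed d)).toSphere

lemma unif_prob (hd : d ≠ 0) : IsProbabilityMeasure (unif d) := by
  constructor
  rw [unif, Measure.smul_apply, smul_eq_mul, ENNReal.inv_mul_cancel]
  · rw [Measure.toSphere_apply_univ, finrank_euclideanSpace_fin]
    exact mul_ne_zero (by simpa using hd) (measure_ball_pos _ _ one_pos).ne'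
  · exact measure_ne_top _ _

lemma unif_ball (hd : d ≠ 0) (s : Ed d) (j : ℕ) :
    unif d {x | ‖(x : Ed d) - s‖ ≤ 2⁻¹ ^ j} * 2 ^ (j * (d - 1)) ≤ 2 ^ d := by
  have hm : MeasurableSet {x : sphere (0 : Ed d) 1 | ‖(x : Ed d) - s‖ ≤ 2⁻¹ ^ j} :=
    measurableSet_le (by fun_prop) measurable_const
  have hr : finrank ℝ (ℝ ∙ s) ≤ 1 := by simpa using finrank_span_le_card ({s} : Set (Ed d))
  have h2 := tube_vol (ℝ ∙ s) hr 0 (a := 2⁻¹ ^ j) (l := 2 ^ j) (one_le_pow₀ one_le_two)
  have hsub : Ioo (0 : ℝ) 1 • ((↑) '' {x : sphere (0 : Ed d) 1 | ‖(x : Ed d) - s‖ ≤ 2⁻¹ ^ j}) ⊆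
      {x : Ed d | ‖x - 0‖ ≤ 2 ^ j * 2⁻¹ ^ j ∧ dperp (ℝ ∙ s) (x - 0) ≤ 2⁻¹ ^ j} := by
    rintro _ ⟨c, hc, _, ⟨x, hx, rfl⟩, rfl⟩
    have hx1 : ‖(x : Ed d)‖ = 1 := by simpa using x.2
    simp only [mem_setOf_eq, sub_zero] at hx ⊢
    constructor
    · rw [← mul_pow, norm_smul, hx1, Real.norm_eq_abs, abs_of_pos hc.1]
      simpa using hc.2.le
    · have e : (ℝ ∙ s)ᗮ.starProjection (x : Ed d) = (ℝ ∙ s)ᗮ.starProjection ((x : Ed d) - s) := by
        rw [map_sub, Submodule.starProjection_orthogonalComplement_singleton_eq_zero, sub_zero]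
      have h6 := (ℝ ∙ s)ᗮ.norm_starProjection_apply_le ((x : Ed d) - s)
      rw [dperp, map_smul, norm_smul, Real.norm_eq_abs, abs_of_pos hc.1, e]
      exact (mul_le_of_le_one_left (norm_nonneg _) hc.2.le).trans (h6.trans hx)
  have h3 := (measure_mono hsub).trans h2
  rw [Measure.addHaar_closedBall _ _ (by positivity), finrank_euclideanSpace_fin] at h3
  rw [unif, Measure.smul_apply, smul_eq_mul, Measure.toSphere_apply' _ hm,
    Measure.toSphere_apply_univ, finrank_euclideanSpace_fin]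
  set V := volume (ball (0 : Ed d) 1)
  have hV0 : (d : ℝ≥0∞) * V ≠ 0 :=
    mul_ne_zero (by simpa using hd) (measure_ball_pos _ _ one_pos).ne'
  have hV1 : (d : ℝ≥0∞) * V ≠ ∞ := ENNReal.mul_ne_top (by simp) measure_ball_lt_top.ne
  refine (mul_le_mul_left (mul_le_mul_right (mul_le_mul_right h3 _) _) _).trans (le_of_eq ?_)
  obtain ⟨e, rfl⟩ := Nat.exists_eq_succ_of_ne_zero hd
  have h4 : ENNReal.ofReal (2 ^ j) ^ 1 * ENNReal.ofReal ((2 * 2⁻¹ ^ j) ^ (e + 1)) * 2 ^ (j * e) =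
      2 ^ (e + 1) := by
    rw [← ENNReal.ofReal_ofNat 2, ← ENNReal.ofReal_pow (by norm_num), pow_one,
      ← ENNReal.ofReal_pow (by norm_num), ← ENNReal.ofReal_mul (by positivity),
      ← ENNReal.ofReal_mul (by positivity), ← ENNReal.ofReal_pow (by norm_num)]
    congr 1
    rw [mul_pow, inv_pow, inv_pow, pow_mul, pow_succ ((2 : ℝ) ^ j)]
    field_simp
  rw [← h4, Nat.succ_sub_one]
  calc _ = ((e.succ : ℝ≥0∞) * V)⁻¹ * (e.succ * V) * (ENNReal.ofReal (2 ^ j) ^ 1 *
      ENNReal.ofReal ((2 * 2⁻¹ ^ j) ^ (e + 1)) * 2 ^ (j * e)) := by ring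
    _ = _ := by rw [ENNReal.inv_mul_cancel hV0 hV1, one_mul]

end Vale.Agent.P309
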