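import Vale.Agent.P309.Pot

/-! Deterministic finite-state learners: the two upper bounds on the success probability. -/

open MeasureTheory ProbabilityTheory Set Filter Topology Module Metric
open scoped RealInnerProductSpace ENNReal

set_option linter.unusedSectionVars false

namespace Vale.Agent.P309

variable {d : ℕ} {σ : Type*} [Fintype σ] [MeasurableSpace σ] [DiscreteMeasurableSpace σ]

lemma measurable_foldl {Y : Type*} [MeasurableSpace Y] (n : ℕ) :
    ∀ (f : σ → Fin n → Y → σ), (∀ c i, Measurable (f c i)) → ∀ w : Y → σ, Measurable w →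
      Measurable fun y => Fin.foldl n (fun c i => f c i y) (w y) := by
  induction n with
  | zero => intro f _ w hw; simpa using hw
  | succ n ih =>
    intro f hf w hw
    simp only [Fin.foldl_succ]
    refine ih (fun c i => f c i.succ) (fun c i => hf c _) (fun y => f (w y) 0 y) ?_
    exact (measurable_from_prod_countable_right (f := fun q : σ × Y => f q.1 0 q.2)
      fun c => hf c 0).comp (hw.prodMk measurable_id)

/-- state after reading a block -/
def runF (st : ℕ → σ → Ed d × ℝ → σ) {n : ℕ} (t : ℕ) (w : σ) (p : Fin n → Ed d × ℝ) : σ :=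
  Fin.foldl n (fun c i => st (t + i) c (p i)) w

lemma measurable_runF {st : ℕ → σ → Ed d × ℝ → σ} (hst : ∀ t w, Measurable (st t w)) (n t : ℕ)
    (w : σ) : Measurable (runF st (n := n) t w) :=
  measurable_foldl n (fun c i (p : Fin n → Ed d × ℝ) => st (t + i) c (p i))
    (fun c i => (hst _ c).comp (measurable_pi_apply i)) (fun _ => w) measurable_const

lemma runF_succ (st : ℕ → σ → Ed d × ℝ → σ) {n : ℕ} (t : ℕ) (w : σ) (p : Fin (n + 1) → Ed d × ℝ) :
    runF st t w p = runF st (t + 1) (st t w (p 0)) fun i => p i.succ := by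
  simp only [runF, Fin.foldl_succ, Fin.val_zero, add_zero, Fin.val_succ]
  congr 1; funext c i; congr 1; omega

/-- success probability of the remaining computation -/
noncomputable def val (st : ℕ → σ → Ed d × ℝ → σ) (good : σ → Set (Ed d)) :
    ℕ → ℕ → σ → Ed d → ℝ≥0∞
  | 0, _, w, s => (good w).indicator 1 s
  | n + 1, t, w, s => ∫⁻ x, val st good n (t + 1) (st t w (x, ⟪x, s⟫)) s ∂stdGaussian (Ed d)

variable {st : ℕ → σ → Ed d × ℝ → σ} {good : σ → Set (Ed d)}

lemma measurable_val (hst : ∀ t w, Measurable (st t w)) (hg : ∀ w, MeasurableSet (good w))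
    (n : ℕ) : ∀ t w, Measurable (val st good n t w) := by
  induction n with
  | zero => exact fun t w => measurable_one.indicator (hg w)
  | succ n ih =>
    intro t w
    have h1 : Measurable fun q : σ × Ed d => val st good n (t + 1) q.1 q.2 :=
      measurable_from_prod_countable_right fun c => ih _ c
    have h2 : Measurable fun q : Ed d × Ed d => (st t w (q.2, ⟪q.2, q.1⟫), q.1) :=
      ((hst t w).comp (by fun_prop)).prodMk measurable_fst
    exact (h1.comp h2).lintegral_prod_right'

lemma val_le (n : ℕ) {c : ℝ≥0∞} {s : Ed d} (h : ∀ w, (good w).indicator 1 s ≤ c) :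
    ∀ t w, val st good n t w s ≤ c := by
  induction n with
  | zero => exact fun t w => h w
  | succ n ih =>
    intro t w
    refine (lintegral_mono (g := fun _ => c) fun x => ih _ _).trans ?_
    simp

lemma val_frozen {T : ℕ} (h : ∀ t, T ≤ t → ∀ w p, st t w p = w) (n : ℕ) :
    ∀ t, T ≤ t → ∀ w s, val st good n t w s = (good w).indicator 1 s := by
  induction n with
  | zero => exact fun t _ w s => rfl
  | succ n ih =>
    intro t ht w s
    simp [val, h t ht, ih (t + 1) (by omega)]

lemma val_block (hst : ∀ t w, Measurable (st t w)) (n k : ℕ) (s : Ed d) :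
    ∀ t w, val st good (n + k) t w s =
      ∫⁻ X, val st good n (t + k) (runF st t w (obs s X)) s ∂rows (Ed d) k := by
  induction k with
  | zero => intro t w; simp [runF]
  | succ k ih =>
    intro t w
    rw [← ((measurePreserving_piFinSuccAbove (fun _ : Fin (k + 1) => stdGaussian (Ed d))
      0).symm).lintegral_comp_emb (MeasurableEquiv.measurableEmbedding _)]
    have hm : Measurable fun X : Fin (k + 1) → Ed d =>
        val st good n (t + (k + 1)) (runF st t w (obs s X)) s :=
      (measurable_of_countable fun c => val st good n (t + (k + 1)) c s).comp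
        ((measurable_runF hst _ t w).comp (measurable_obs s))
    rw [lintegral_prod (fun a : Ed d × (Fin k → Ed d) => val st good n (t + (k + 1)) (runF st t w
        (obs s ((MeasurableEquiv.piFinSuccAbove (fun _ => Ed d) 0).symm a))) s)
      (hm.comp (MeasurableEquiv.measurable _)).aemeasurable, ← add_assoc, val]
    congr 1; funext x
    rw [ih]
    congr 1; funext X
    simp only [Function.comp_apply, runF_succ, MeasurableEquiv.piFinSuccAbove_symm_apply,
      Fin.insertNthEquiv, Fin.insertNth_zero, Equiv.coe_fn_mk, obs, Fin.cons_zero, Fin.cons_succ,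
      cast_eq]
    rw [show t + 1 + k = t + k + 1 by omega]
    rfl

lemma val_sum (hst : ∀ t w, Measurable (st t w)) (n k : ℕ) (s : Ed d) (t : ℕ) (w : σ) :
    val st good (n + k) t w s = ∑ c, val st good n (t + k) c s *
      rows (Ed d) k (obs s ⁻¹' (runF st t w ⁻¹' {c})) := by
  have hm := (measurable_runF hst k t w).comp (measurable_obs s)
  have := lintegral_map (μ := rows (Ed d) k)
    (measurable_of_countable fun c => val st good n (t + k) c s) hm
  rw [lintegral_fintype] at this
  rw [val_block hst]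
  refine this.symm.trans (Finset.sum_congr rfl fun c _ => ?_)
  rw [Measure.map_apply hm (measurableSet_singleton c)]
  rfl

lemma induct (hd : d ≠ 0) {β k μ1 bs : ℕ} (hk : k ≠ 0) (hσ : Fintype.card σ ≤ 2 ^ (μ1 * k))
    (hst : ∀ t w, Measurable (st t w)) (c : σ → Ed d) (n : ℕ) :
    ∀ t (ν : Measure (Ed d)) [IsFiniteMeasure ν] b z R w, Good (β + 3 * k + 3) ν b z R →
      ∫⁻ s, val st (fun w => closedBall (c w) (2⁻¹ ^ bs)) (n * k) t w s ∂ν ≤
        n * (2 * 2⁻¹ ^ k) * ν univ + 2 ^ (2 * (μ1 + 11 * k + 5 * d + 5) * (n + 1)) *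
          2⁻¹ ^ (β * bs) * R * 2 ^ (β * b) := by
  induction n with
  | zero =>
    intro t ν _ b z R w h
    simp only [zero_mul, val, Nat.cast_zero, zero_add, mul_one]
    rw [lintegral_indicator_one measurableSet_closedBall]
    exact base hd (by omega) (by omega) ν h _
  | succ n ih =>
    intro t ν _ b z R w h
    simp_rw [Nat.succ_mul, val_sum hst]
    refine (step hd hk hσ (measurable_val hst (fun _ => measurableSet_closedBall) _ _)
      (fun w s => val_le _ (fun w => indicator_le_self' (fun _ _ => zero_le) s) _ _)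
      (mul_ne_zero (two_pow_ne_zero _) (half_pow_ne_zero _)) (ih (t + k)) _
      (fun c => measurable_runF hst k t w (measurableSet_singleton c)) ν h).trans (le_of_eq ?_)
    push_cast
    ring

lemma unif_ball' (hd : d ≠ 0) (s : Ed d) (j : ℕ) :
    (unif d).map Subtype.val (closedBall s (2⁻¹ ^ j)) ≤ 2 ^ d * 2⁻¹ ^ (j * (d - 1)) := by
  rw [Measure.map_apply measurable_subtype_coe measurableSet_closedBall]
  have h := mul_le_mul_left (unif_ball hd s j) (2⁻¹ ^ (j * (d - 1)))
  rw [mul_assoc, two_cancel, mul_one] at h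
  refine le_trans (le_of_eq ?_) h
  congr 1

lemma good_unif {α : ℕ} (hα : α + 2 ≤ d) :
    Good α ((unif d).map Subtype.val) 0 0 (2 ^ (d + 1)) := by
  have hd : d ≠ 0 := by omega
  have := unif_prob hd
  have hp : ∀ s, pot α ((unif d).map Subtype.val) 0 s ≤ 2 ^ (d + 1) := by
    intro s
    calc _ ≤ ∑' j : ℕ, (2 : ℝ≥0∞) ^ d * 2⁻¹ ^ j := by
          refine ENNReal.tsum_le_tsum fun j => ?_
          by_cases hj : j = 0
          · subst hj
            simp only [mul_zero, pow_zero, one_mul, mul_one]
            rw [Measure.map_apply measurable_subtype_coe (measurableSet_Cs _ _)]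
            exact prob_le_one.trans (one_le_pow₀ one_le_two)
          · have h1 : (unif d).map Subtype.val (Cs (0 + j) s) ≤ 2 ^ d * 2⁻¹ ^ (j * (d - 1)) := by
              refine (measure_mono fun x hx => ?_).trans (unif_ball' hd s j)
              rw [mem_closedBall, dist_eq_norm]
              rw [zero_add] at hx
              exact cell_diam hd hj hx
            calc _ ≤ (2 : ℝ≥0∞) ^ (α * j) * (2 ^ d * 2⁻¹ ^ ((α + 1) * j)) := by
                  refine mul_le_mul_right (h1.trans (mul_le_mul_right
                    (pow_le_pow_right_of_le_one' (by simp) ?_) _)) _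
                  rw [mul_comm]; exact Nat.mul_le_mul_left _ (by omega)
              _ = 2 ^ d * 2⁻¹ ^ j * (2 ^ (α * j) * 2⁻¹ ^ (α * j)) := by ring
              _ = _ := by rw [two_cancel, mul_one]
      _ = _ := by rw [ENNReal.tsum_mul_left, geom_two, pow_succ]
  have h2 : ∀ᵐ s ∂(unif d).map Subtype.val, ‖s‖ ≤ 1 := by
    rw [ae_map_iff measurable_subtype_coe.aemeasurable
      (measurableSet_le (by fun_prop) measurable_const)]
    exact ae_of_all _ fun x => by simp
  exact h2.mono fun s hs => ⟨hs, by funext i; simp [cell], hp s⟩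

/-- the success probability of a deterministic learner -/
noncomputable def succ (st : ℕ → σ → Ed d × ℝ → σ) (c : σ → Ed d) (bs T : ℕ) (w : σ) : ℝ≥0∞ :=
  ∫⁻ s : sphere (0 : Ed d) 1, rows (Ed d) T
    {X | (s : Ed d) ∈ closedBall (c (runF st 0 w (obs (s : Ed d) X))) (2⁻¹ ^ bs)} ∂unif d

lemma succ_eq (hst : ∀ t w, Measurable (st t w)) {T : ℕ} (h : ∀ t, T ≤ t → ∀ w p, st t w p = w)
    (c : σ → Ed d) (bs : ℕ) (w : σ) {n : ℕ} (hn : T ≤ n) :
    succ st c bs T w =
      ∫⁻ s, val st (fun w => closedBall (c w) (2⁻¹ ^ bs)) n 0 w s ∂(unif d).map Subtype.val := by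
  obtain ⟨e, rfl⟩ := Nat.exists_eq_add_of_le' hn
  rw [lintegral_map (measurable_val hst (fun _ => measurableSet_closedBall) _ _ _)
    measurable_subtype_coe, succ]
  congr 1; funext s
  have hm := (measurable_runF hst T 0 w).comp (measurable_obs (s : Ed d))
  have hS : MeasurableSet {X : Fin T → Ed d |
      (s : Ed d) ∈ closedBall (c (runF st 0 w (obs (s : Ed d) X))) (2⁻¹ ^ bs)} :=
    hm (t := {w | (s : Ed d) ∈ closedBall (c w) (2⁻¹ ^ bs)}) .of_discrete
  rw [val_block hst, ← lintegral_indicator_one hS]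
  congr 1; funext X
  rw [val_frozen h e _ (by omega)]
  rfl

theorem succ_le_count (hd : d ≠ 0) (hst : ∀ t w, Measurable (st t w)) {T : ℕ}
    (h : ∀ t, T ≤ t → ∀ w p, st t w p = w) (c : σ → Ed d) (bs : ℕ) (w : σ) :
    succ st c bs T w ≤ Fintype.card σ * (2 ^ d * 2⁻¹ ^ (bs * (d - 1))) := by
  rw [succ_eq hst h c bs w le_rfl]
  refine (lintegral_mono (g := fun s => ∑ w, (closedBall (c w) (2⁻¹ ^ bs)).indicator 1 s)
    fun s => val_le _ (fun w => Finset.single_le_sum
      (f := fun w => (closedBall (c w) (2⁻¹ ^ bs)).indicator (1 : Ed d → ℝ≥0∞) s)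
      (fun _ _ => zero_le) (Finset.mem_univ w)) _ _).trans ?_
  rw [lintegral_finsetSum _ fun w _ => measurable_one.indicator measurableSet_closedBall]
  simp_rw [lintegral_indicator_one measurableSet_closedBall]
  refine (Finset.sum_le_sum fun w _ => unif_ball' hd _ _).trans ?_
  simp

theorem succ_le_pot {β k μ1 n : ℕ} (hk : k ≠ 0) (hd : β + 3 * k + 5 ≤ d)
    (hσ : Fintype.card σ ≤ 2 ^ (μ1 * k)) (hst : ∀ t w, Measurable (st t w)) {T : ℕ}
    (h : ∀ t, T ≤ t → ∀ w p, st t w p = w) (hn : T ≤ n * k) (c : σ → Ed d) (bs : ℕ) (w : σ) :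
    succ st c bs T w ≤ n * (2 * 2⁻¹ ^ k) +
      2 ^ (2 * (μ1 + 11 * k + 5 * d + 5) * (n + 1) + (d + 1)) * 2⁻¹ ^ (β * bs) := by
  have hd0 : d ≠ 0 := by omega
  have := unif_prob hd0
  rw [succ_eq hst h c bs w hn]
  refine (induct hd0 hk hσ hst c n 0 _ 0 0 _ w (good_unif (by omega))).trans (le_of_eq ?_)
  rw [Measure.map_apply measurable_subtype_coe .univ, preimage_univ, measure_univ]
  ring

end Vale.Agent.P309
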