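import Vale.Agent.P309.Main

/-! Choice of parameters. -/

open MeasureTheory ProbabilityTheory Set Filter Topology Module Metric
open scoped RealInnerProductSpace ENNReal

namespace Vale.Agent.P309

lemma exp_beats (Q : ℕ) : ∃ k0 : ℕ, ∀ k ≥ k0, Q * k ^ 2 ≤ 2 ^ k := by
  have h := (tendsto_pow_const_div_const_pow_of_one_lt 2 (one_lt_two (α := ℝ))).const_mul (Q : ℝ)
  rw [mul_zero] at h
  obtain ⟨k0, hk⟩ := eventually_atTop.1 (h.eventually (ge_mem_nhds one_pos))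
  refine ⟨k0, fun k hk0 => ?_⟩
  have h1 := hk k hk0
  rw [← mul_div_assoc, div_le_one (by positivity)] at h1
  exact_mod_cast h1

lemma pow_ratio {a b c : ℕ} (h : a + c ≤ b) : (2 : ℝ≥0∞) ^ a * 2⁻¹ ^ b ≤ 2⁻¹ ^ c := by
  calc _ ≤ (2 : ℝ≥0∞) ^ a * 2⁻¹ ^ (a + c) :=
        mul_le_mul_right (pow_le_pow_right_of_le_one' (by simp) h) _
    _ = _ := by rw [pow_add, ← mul_assoc, two_cancel, one_mul]

theorem succ_half (C : ℕ) : ∃ L b0 d0 : ℕ, 0 < L ∧ 0 < d0 ∧ ∀ d ≥ d0, ∀ bs ≥ b0, ∀ T : ℕ,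
    T * L ≤ d * bs → ∀ (σ : Type) [Fintype σ] [MeasurableSpace σ] [DiscreteMeasurableSpace σ],
      Fintype.card σ ≤ 2 ^ (C * d ^ 2) * (T + 2) → ∀ st : ℕ → σ → Ed d × ℝ → σ,
      (∀ t w, Measurable (st t w)) → (∀ t, T ≤ t → ∀ w p, st t w p = w) →
      ∀ (c : σ → Ed d) (w : σ), succ st c bs T w ≤ 2⁻¹ := by
  obtain ⟨k0, hk0⟩ := exp_beats (8 * 256 * (2 * C + 3))
  set a := 32 * (3 * C + 3) + 16 with ha
  refine ⟨128 * a, 8 * (2 * a + 4), 8 * k0 + 40, by positivity, by positivity,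
    fun d hd bs hbs T hT σ _ _ _ hσ st hst hfr c w => ?_⟩
  have hT1 : T ≤ d * bs := le_trans (Nat.le_mul_of_pos_right _ (by positivity)) hT
  rcases le_total bs ((2 * C + 2) * d) with hb | hb
  · set k := d / 8 with hk
    have hk1 : 8 * k ≤ d := by omega
    have hk2 : d ≤ 16 * k := by omega
    have hk3 : k0 ≤ k := by omega
    have hk4 : k ≠ 0 := by omega
    have hT2 : T ≤ (2 * C + 2) * d ^ 2 := hT1.trans (by nlinarith)
    have hd2 : 1 ≤ d ^ 2 := Nat.one_le_pow _ _ (by omega)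
    have hσ' : Fintype.card σ ≤ 2 ^ (16 * (3 * C + 3) * d * k) := by
      have h1 : T + 2 ≤ 2 ^ (T + 1) := Nat.lt_two_pow_self
      refine hσ.trans ((Nat.mul_le_mul_left _ h1).trans ?_)
      rw [← pow_add]
      refine Nat.pow_le_pow_right two_pos ?_
      calc _ ≤ (3 * C + 3) * d * d := by nlinarith
        _ ≤ (3 * C + 3) * d * (16 * k) := Nat.mul_le_mul_left _ hk2
        _ = _ := by ring
    have hn : T ≤ (T / k + 1) * k := by
      have := Nat.div_add_mod T k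
      have := Nat.mod_lt T (Nat.pos_of_ne_zero hk4)
      nlinarith
    refine (succ_le_pot (β := d - 3 * k - 5) hk4 (by omega) hσ' hst hfr hn c bs w).trans ?_
    have h1 : ((T / k + 1 : ℕ) : ℝ≥0∞) * (2 * 2⁻¹ ^ k) ≤ 2⁻¹ ^ 2 := by
      have h2 : (T / k + 1) * 8 ≤ 2 ^ k := by
        refine le_trans ?_ (hk0 k hk3)
        have h3 : T / k ≤ T := Nat.div_le_self _ _
        have h4 : d ^ 2 ≤ (16 * k) ^ 2 := Nat.pow_le_pow_left hk2 2
        calc _ ≤ (2 * C + 3) * d ^ 2 * 8 := by nlinarith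
          _ ≤ (2 * C + 3) * (16 * k) ^ 2 * 8 := by gcongr
          _ = _ := by ring
      have h5 : ((T / k + 1 : ℕ) : ℝ≥0∞) * 2 ^ 3 ≤ 2 ^ k := by exact_mod_cast h2
      calc _ = ((T / k + 1 : ℕ) : ℝ≥0∞) * (2 * 2⁻¹ ^ k) * (2 ^ 2 * 2⁻¹ ^ 2) := by
            rw [two_cancel, mul_one]
        _ = ((T / k + 1 : ℕ) : ℝ≥0∞) * 2 ^ 3 * 2⁻¹ ^ k * 2⁻¹ ^ 2 := by ring
        _ ≤ 2 ^ k * 2⁻¹ ^ k * 2⁻¹ ^ 2 := by gcongr
        _ = _ := by rw [two_cancel, one_mul]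
    have h6 : 2 * (16 * (3 * C + 3) * d + 11 * k + 5 * d + 5) * (T / k + 1 + 1) + (d + 1) + 2 ≤
        (d - 3 * k - 5) * bs := by
      have h7 : 2 * (16 * (3 * C + 3) * d + 11 * k + 5 * d + 5) ≤ a * d := by
        have : a * d = 2 * (16 * (3 * C + 3) * d) + 16 * d := by rw [ha]; ring
        omega
      have h8 : T / k * d ≤ 16 * T := by
        calc _ ≤ T / k * (16 * k) := Nat.mul_le_mul_left _ hk2
          _ = 16 * (T / k * k) := by ring
          _ ≤ _ := Nat.mul_le_mul_left _ (Nat.div_mul_le_self _ _)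
      have h9 : a * d * (T / k + 1 + 1) ≤ 16 * (T * a) + 2 * (a * d) := by
        calc _ = a * (T / k * d) + 2 * (a * d) := by ring
          _ ≤ a * (16 * T) + 2 * (a * d) := by gcongr
          _ = _ := by ring
      have h10 : 128 * (T * a) ≤ d * bs := by rw [← mul_assoc, mul_comm 128, mul_assoc]; exact hT
      have h11 : 16 * (a * d) + 32 * d ≤ d * bs := by
        calc _ = d * (8 * (2 * a + 4)) := by ring
          _ ≤ _ := Nat.mul_le_mul_left _ hbs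
      have h12 : d * bs ≤ 2 * ((d - 3 * k - 5) * bs) := by
        rw [← mul_assoc]; exact Nat.mul_le_mul_right _ (by omega)
      have h13 := Nat.mul_le_mul_right (T / k + 1 + 1) h7
      omega
    refine (add_le_add h1 (pow_ratio h6)).trans (le_of_eq ?_)
    calc _ = (2 : ℝ≥0∞) ^ 1 * 2⁻¹ ^ 1 * 2⁻¹ := by ring
      _ = _ := by rw [two_cancel, one_mul]
  · refine (succ_le_count (by omega) hst hfr c bs w).trans ?_
    have h1 : T + 2 ≤ 2 ^ (d + bs) := by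
      have h2 : d + 1 ≤ 2 ^ d := Nat.lt_two_pow_self
      have h3 : bs + 1 ≤ 2 ^ bs := Nat.lt_two_pow_self
      rw [pow_add]
      refine le_trans ?_ (Nat.mul_le_mul h2 h3)
      nlinarith
    have h4 : (Fintype.card σ : ℝ≥0∞) ≤ 2 ^ (C * d ^ 2 + (d + bs)) := by
      rw [pow_add]; exact_mod_cast hσ.trans (Nat.mul_le_mul_left _ h1)
    refine (mul_le_mul_left h4 _).trans ?_
    rw [← mul_assoc, ← pow_add, ← pow_one 2⁻¹, ← pow_mul, one_mul]
    refine pow_ratio ?_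
    obtain ⟨e, rfl⟩ : ∃ e, d = e + 4 := ⟨d - 4, by omega⟩
    have h5 : (2 * C + 2) * (e + 4) * (e + 2) ≤ bs * (e + 2) := Nat.mul_le_mul_right _ hb
    rw [show e + 4 - 1 = e + 3 by omega]
    nlinarith [Nat.zero_le C, Nat.zero_le e, Nat.zero_le (C * e), Nat.zero_le (C * e * e)]

lemma chord_le {d : ℕ} {x y : Ed d} (hx : ‖x‖ = 1) (hy : ‖y‖ = 1) :
    dist y x ≤ Real.arccos ⟪x, y⟫ := by
  have h1 := abs_le.1 (abs_real_inner_le_norm x y)
  rw [hx, hy, mul_one] at h1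
  refine le_of_sq_le_sq ?_ (Real.arccos_nonneg _)
  have h2 := Real.one_sub_sq_div_two_le_cos (x := Real.arccos ⟪x, y⟫)
  rw [Real.cos_arccos h1.1 h1.2] at h2
  rw [dist_eq_norm, norm_sub_sq_real, hx, hy, real_inner_comm]
  linarith

end Vale.Agent.P309
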