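import Vale.Agent.P309.Stage

/-! The multiscale potential and the induction step over one block. -/

open MeasureTheory ProbabilityTheory Set Filter Topology Module Metric
open scoped RealInnerProductSpace ENNReal

set_option linter.unusedSectionVars false

namespace Vale.Agent.P309

variable {d : ℕ}

/-- multiscale local mass -/
noncomputable def pot (α : ℕ) (ν : Measure (Ed d)) (b : ℕ) (s : Ed d) : ℝ≥0∞ :=
  ∑' j : ℕ, 2 ^ (α * j) * ν (Cs (b + j) s)

lemma measurable_mass (ν : Measure (Ed d)) (t : ℕ) : Measurable fun s => ν (Cs t s) :=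
  (measurable_of_countable fun z => ν (cell t ⁻¹' {z})).comp (measurable_cell t)

lemma measurable_pot (α : ℕ) (ν : Measure (Ed d)) (b : ℕ) : Measurable (pot α ν b) :=
  Measurable.ennreal_tsum fun _ => (measurable_mass ν _).const_mul _

lemma pot_mono (α : ℕ) {ν ν' : Measure (Ed d)} (h : ν ≤ ν') (b : ℕ) (s : Ed d) :
    pot α ν b s ≤ pot α ν' b s :=
  ENNReal.tsum_le_tsum fun _ => mul_le_mul_right (h _) _

lemma pot_swap (α : ℕ) (ν ν' : Measure (Ed d)) [IsFiniteMeasure ν] [IsFiniteMeasure ν'] (b : ℕ) :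
    ∫⁻ s, pot α ν b s ∂ν' = ∫⁻ s, pot α ν' b s ∂ν := by
  unfold pot
  rw [lintegral_tsum fun j => ((measurable_mass ν _).const_mul _).aemeasurable,
    lintegral_tsum fun j => ((measurable_mass ν' _).const_mul _).aemeasurable]
  congr 1; funext j
  rw [lintegral_const_mul _ (measurable_mass ν _), lintegral_const_mul _ (measurable_mass ν' _)]
  congr 1
  have h1 := Measure.prod_apply (μ := ν') (ν := ν) (measurableSet_same (d := d) (b + j))
  rw [Measure.prod_apply_symm (measurableSet_same (d := d) (b + j))] at h1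
  refine h1.symm.trans ?_
  congr 1; funext s; congr 1
  ext x; simp [Cs, eq_comm]

lemma pot_shift (α : ℕ) (ν : Measure (Ed d)) (b j : ℕ) (s : Ed d) :
    pot α ν (b + j) s ≤ pot α ν b s * 2⁻¹ ^ (α * j) := by
  have h := ENNReal.tsum_comp_le_tsum_of_injective (f := fun i : ℕ => j + i)
    (add_right_injective j) fun i => (2 : ℝ≥0∞) ^ (α * i) * ν (Cs (b + i) s)
  refine le_trans (le_of_eq ?_) (mul_le_mul_left h _)
  rw [pot, ← ENNReal.tsum_mul_right]
  congr 1; funext i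
  rw [← add_assoc]
  calc _ = 2 ^ (α * i) * ν (Cs (b + j + i) s) * (2 ^ (α * j) * 2⁻¹ ^ (α * j)) := by
        rw [two_cancel, mul_one]
    _ = _ := by ring

lemma mass_le_pot (α : ℕ) (ν : Measure (Ed d)) (b : ℕ) (s : Ed d) : ν (Cs b s) ≤ pot α ν b s := by
  refine le_trans ?_ (ENNReal.le_tsum 0); simp

/-- the invariant of the induction -/
def Good (α : ℕ) (ν : Measure (Ed d)) (b : ℕ) (z : Fin d → ℤ) (R : ℝ≥0∞) : Prop :=
  ∀ᵐ s ∂ν, ‖s‖ ≤ 1 ∧ cell b s = z ∧ pot α ν b s ≤ R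

lemma Good.mass {α : ℕ} {ν : Measure (Ed d)} {b : ℕ} {z : Fin d → ℤ} {R : ℝ≥0∞}
    (h : Good α ν b z R) {s : Ed d} (hs : cell b s = z) : ν (Cs b s) = ν univ :=
  measure_congr (Filter.eventuallyEq_univ.2 (h.mono fun _ hx => hx.2.1.trans hs.symm))

lemma Good.univ_le {α : ℕ} {ν : Measure (Ed d)} {b : ℕ} {z : Fin d → ℤ} {R : ℝ≥0∞}
    (h : Good α ν b z R) : ν univ ≤ R := by
  by_cases h0 : ν univ = 0
  · simp [h0]
  obtain ⟨s, -, hs⟩ := Measure.exists_mem_of_measure_ne_zero_of_ae h0 (ae_restrict_of_ae h)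
  rw [← h.mass hs.2.1]
  exact (mass_le_pot _ _ _ _).trans hs.2.2

lemma Good.diam (hd : d ≠ 0) {α : ℕ} {ν : Measure (Ed d)} {b : ℕ} {z : Fin d → ℤ} {R : ℝ≥0∞}
    (h : Good α ν b z R) : ∀ᵐ s0 ∂ν, ∀ᵐ s ∂ν, ‖s - s0‖ ≤ 2 * 2⁻¹ ^ b := by
  refine h.mono fun s0 h0 => h.mono fun s hs => ?_
  by_cases hb : b = 0
  · have := norm_sub_le s s0
    simp only [hb, pow_zero]; linarith [h0.1, hs.1]
  · have := cell_diam hd hb (hs.2.1.trans h0.2.1.symm)
    have h2 : (0 : ℝ) ≤ 2⁻¹ ^ b := by positivity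
    linarith

lemma base (hd : d ≠ 0) {α β A bs : ℕ} (hβ : β ≤ α) (hA : 5 * d ≤ A) (ν : Measure (Ed d))
    [IsFiniteMeasure ν] {b : ℕ} {z : Fin d → ℤ} {R : ℝ≥0∞} (h : Good α ν b z R) (c : Ed d) :
    ν (closedBall c (2⁻¹ ^ bs)) ≤ 2 ^ A * 2⁻¹ ^ (β * bs) * R * 2 ^ (β * b) := by
  rcases le_total bs b with hb | hb
  · obtain ⟨j, rfl⟩ := Nat.exists_eq_add_of_le hb
    refine (measure_mono (subset_univ _)).trans (h.univ_le.trans ?_)
    calc R ≤ R * 2 ^ (A + β * j) := le_mul_of_one_le_right' (one_le_pow₀ one_le_two)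
      _ = R * 2 ^ (A + β * j) * (2 ^ (β * bs) * 2⁻¹ ^ (β * bs)) := by rw [two_cancel, mul_one]
      _ = _ := by ring
  · obtain ⟨j, rfl⟩ := Nat.exists_eq_add_of_le hb
    have h1 := tube_mass hd ν (b + j) 0 (ρ := R * 2⁻¹ ^ (α * j)) (h.mono fun s hs =>
      (mass_le_pot α ν _ s).trans ((pot_shift α ν b j s).trans (mul_le_mul_left hs.2.2 _)))
      ⊥ (k := 0) (by simp) c
    refine (measure_mono fun s hs => ?_).trans (h1.trans ?_)
    · rw [mem_closedBall, dist_eq_norm] at hs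
      have h2 : (0 : ℝ) ≤ 2⁻¹ ^ (b + j) := by positivity
      exact ⟨by linarith, (Submodule.norm_starProjection_apply_le _ _).trans hs⟩
    · calc _ ≤ R * 2⁻¹ ^ (β * j) * 2 ^ A := by
            refine mul_le_mul' (mul_le_mul_right ?_ _) (pow_le_pow_right₀ one_le_two (by omega))
            exact pow_le_pow_right_of_le_one' (by simp) (Nat.mul_le_mul_right _ hβ)
        _ = R * 2⁻¹ ^ (β * j) * 2 ^ A * (2 ^ (β * b) * 2⁻¹ ^ (β * b)) := by rw [two_cancel, mul_one]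
        _ = _ := by ring

lemma piece {σ : Type*} [Fintype σ] (hd : d ≠ 0) {α β k μ1 : ℕ} (hk : k ≠ 0)
    (hσ : Fintype.card σ ≤ 2 ^ (μ1 * k)) {V : σ → Ed d → ℝ≥0∞} (hVm : ∀ w, Measurable (V w))
    (hV1 : ∀ w s, V w s ≤ 1) {a K : ℝ≥0∞}
    (hV : ∀ (ν : Measure (Ed d)) [IsFiniteMeasure ν] b z R w, Good α ν b z R →
      ∫⁻ s, V w s ∂ν ≤ a * ν univ + K * R * 2 ^ (β * b))
    (nxt : (Fin k → Ed d × ℝ) → σ) (hn : ∀ w, MeasurableSet (nxt ⁻¹' {w}))
    (ν : Measure (Ed d)) [IsFiniteMeasure ν] {t0 e : ℕ} {z : Fin d → ℤ} {ρ0 l : ℝ≥0∞}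
    (hρ0 : ρ0 ≠ ∞) (hm : ν univ ≤ ρ0) (hl0 : l ≠ 0) (hl : l ≠ ∞)
    (hcell : ∀ i, ∀ᵐ s ∂ν, ν (Cs (t0 + i) s) ≤ ρ0 * 2⁻¹ ^ ((3 * k + 1) * i))
    (hG : Good α ν t0 z (l * ((2⁻¹ ^ e) ^ 2 * ρ0))) :
    ∫⁻ s, ∑ w, V w s * rows (Ed d) k (obs s ⁻¹' (nxt ⁻¹' {w})) ∂ν ≤
      (a + 2⁻¹ ^ k + K * l * 2 ^ (β * t0)) * ν univ +
        2 ^ (μ1 + 10 * k + 5 * d + 4) * 2⁻¹ ^ e * ρ0 := by
  set g : σ → Ed d → ℝ≥0∞ := fun w s => rows (Ed d) k (obs s ⁻¹' (nxt ⁻¹' {w})) with hg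
  have hgm : ∀ w, Measurable (g w) := fun w => measurable_rows_obs (hn w)
  have hg1 : ∀ s, ∑ w, g w s = 1 := by
    intro s
    have := sum_measure_preimage_singleton (μ := rows (Ed d) k) (f := fun X => nxt (obs s X))
      Finset.univ fun w _ => measurable_obs s (hn w)
    exact this.trans (by simp)
  have hfin : ∀ w, IsFiniteMeasure (ν.withDensity (g w)) := fun w =>
    isFiniteMeasure_withDensity (ne_top_of_le_ne_top (by simp)
      (lintegral_mono (g := fun _ => 1) fun s => prob_le_one))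
  have hsum : ∑ w, ν.withDensity (g w) univ = ν univ := by
    simp_rw [withDensity_apply _ MeasurableSet.univ, Measure.restrict_univ]
    rw [← lintegral_finsetSum _ fun w _ => hgm w]
    simp [hg1]
  set A : σ → Set (Ed d) :=
    fun w => {s | l * ν.withDensity (g w) univ < pot α (ν.withDensity (g w)) t0 s} with hA
  have hAm : ∀ w, MeasurableSet (A w) := fun w =>
    measurableSet_lt measurable_const (measurable_pot _ _ _)
  have hAs : ∀ w, ν (A w) ≤ (2⁻¹ ^ e) ^ 2 * ρ0 := by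
    intro w
    have := hfin w
    by_cases h0 : ν.withDensity (g w) univ = 0
    · have : A w = ∅ := by
        ext s
        simp [hA, Measure.measure_univ_eq_zero.1 h0, pot]
      simp [this]
    have h1 := mul_meas_ge_le_lintegral (μ := ν) (measurable_pot α (ν.withDensity (g w)) t0)
      (l * ν.withDensity (g w) univ)
    rw [pot_swap] at h1
    have h2 : ∫⁻ s, pot α ν t0 s ∂ν.withDensity (g w) ≤
        l * ((2⁻¹ ^ e) ^ 2 * ρ0) * ν.withDensity (g w) univ := by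
      rw [← lintegral_const]
      exact lintegral_mono_ae ((withDensity_absolutelyContinuous ν (g w)).ae_le
        (hG.mono fun s hs => hs.2.2))
    rw [← ENNReal.mul_le_mul_iff_right (mul_ne_zero hl0 h0)
      (ENNReal.mul_ne_top hl (measure_ne_top _ _))]
    have h3 : ν (A w) ≤ ν {x | l * ν.withDensity (g w) univ ≤ pot α (ν.withDensity (g w)) t0 x} :=
      measure_mono fun s hs => by
        simp only [hA, mem_setOf_eq] at hs ⊢
        exact hs.le
    refine (mul_le_mul_right h3 _).trans (h1.trans (h2.trans (le_of_eq ?_)))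
    ring
  have h3 : ∀ w, ∫⁻ s, V w s * g w s ∂ν ≤ ∫⁻ s in A w, g w s ∂ν +
      (a + K * l * 2 ^ (β * t0)) * ν.withDensity (g w) univ := by
    intro w
    have := hfin w
    have e1 : ∫⁻ s, V w s * g w s ∂ν = ∫⁻ s, V w s ∂ν.withDensity (g w) := by
      rw [lintegral_withDensity_eq_lintegral_mul _ (hgm w) (hVm w)]
      simp [mul_comm]
    rw [e1, ← lintegral_add_compl _ (hAm w), ← withDensity_apply (g w) (hAm w)]
    refine add_le_add ?_ ?_
    · refine (lintegral_mono (g := fun _ => 1) (hV1 w)).trans ?_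
      simp
    have h4 := hV ((ν.withDensity (g w)).restrict (A w)ᶜ) t0 z (l * ν.withDensity (g w) univ) w (by
      have h5 := ae_restrict_of_ae (s := (A w)ᶜ)
        ((withDensity_absolutelyContinuous ν (g w)).ae_le hG)
      filter_upwards [h5, ae_restrict_mem (hAm w).compl] with s h6 h7
      exact ⟨h6.1, h6.2.1, (pot_mono _ Measure.restrict_le_self _ _).trans (not_lt.1 h7)⟩)
    refine h4.trans ?_
    rw [add_mul]
    exact add_le_add (mul_le_mul_right (Measure.restrict_le_self _) _) (le_of_eq (by ring))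
  rw [lintegral_finsetSum (f := fun w s => V w s * g w s) _ fun w _ => (hVm w).mul (hgm w)]
  refine (Finset.sum_le_sum fun w _ => h3 w).trans ?_
  rw [Finset.sum_add_distrib, ← Finset.mul_sum, hsum]
  refine (add_le_add (stage hd ν hk hσ hρ0 hm hcell (hG.diam hd) nxt hn A hAs) le_rfl).trans
    (le_of_eq ?_)
  ring

lemma tsum_cells (ν : Measure (Ed d)) (t : ℕ) : ∑' z, ν (cell t ⁻¹' {z}) = ν univ := by
  have := lintegral_countable' (μ := ν.map (cell t)) fun _ => 1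
  simp only [lintegral_const, one_mul, Measure.map_apply (measurable_cell t) MeasurableSet.univ,
    preimage_univ, Measure.map_apply (measurable_cell t) (measurableSet_singleton _)] at this
  exact this.symm

lemma step {σ : Type*} [Fintype σ] (hd : d ≠ 0) {β k μ1 : ℕ} (hk : k ≠ 0)
    (hσ : Fintype.card σ ≤ 2 ^ (μ1 * k)) {V : σ → Ed d → ℝ≥0∞} (hVm : ∀ w, Measurable (V w))
    (hV1 : ∀ w s, V w s ≤ 1) {a K : ℝ≥0∞} (hK : K ≠ 0)
    (hV : ∀ (ν : Measure (Ed d)) [IsFiniteMeasure ν] b z R w, Good (β + 3 * k + 3) ν b z R →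
      ∫⁻ s, V w s ∂ν ≤ a * ν univ + K * R * 2 ^ (β * b))
    (nxt : (Fin k → Ed d × ℝ) → σ) (hn : ∀ w, MeasurableSet (nxt ⁻¹' {w}))
    (ν : Measure (Ed d)) [IsFiniteMeasure ν] {b : ℕ} {z : Fin d → ℤ} {R : ℝ≥0∞}
    (hG : Good (β + 3 * k + 3) ν b z R) :
    ∫⁻ s, ∑ w, V w s * rows (Ed d) k (obs s ⁻¹' (nxt ⁻¹' {w})) ∂ν ≤
      (a + 2 * 2⁻¹ ^ k) * ν univ +
        K * 2 ^ (2 * (μ1 + 11 * k + 5 * d + 5)) * R * 2 ^ (β * b) := by
  by_cases h0 : ν univ = 0
  · simp [Measure.measure_univ_eq_zero.1 h0]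
  by_cases hR : R = ∞
  · rw [hR, ENNReal.mul_top (mul_ne_zero hK (two_pow_ne_zero _)),
      ENNReal.top_mul (two_pow_ne_zero _), add_top]
    exact le_top
  have hR0 : R ≠ 0 := fun h => h0 (le_antisymm (h ▸ hG.univ_le) zero_le)
  let f : Ed d → ℕ → ℝ≥0∞ := fun s j => 2 ^ ((3 * k + 1) * j) * ν (Cs (b + j) s)
  let P : ℕ → Set (Ed d) := fun j => {s | ∀ i, f s i ≤ f s j}
  have hPm : ∀ j, MeasurableSet (P j) := by
    intro j
    simp only [P, setOf_forall]
    exact MeasurableSet.iInter fun i => measurableSet_le ((measurable_mass ν _).const_mul _)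
      ((measurable_mass ν _).const_mul _)
  let Q : ℕ × (Fin d → ℤ) → Set (Ed d) := fun q => disjointed P q.1 ∩ cell (b + q.1) ⁻¹' {q.2}
  have hQm : ∀ q, MeasurableSet (Q q) := fun q =>
    (MeasurableSet.disjointed hPm q.1).inter (measurable_cell _ (measurableSet_singleton _))
  have hQd : Pairwise (Function.onFun Disjoint Q) := by
    rintro ⟨j, z1⟩ ⟨j', z2⟩ hne
    by_cases hj : j = j'
    · subst hj
      refine Set.disjoint_left.2 fun s h1 h2 => hne ?_
      rw [← (show cell (b + j) s = z1 from h1.2), ← (show cell (b + j) s = z2 from h2.2)]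
    · exact (disjoint_disjointed P hj).mono inter_subset_left inter_subset_left
  have hcov : ∀ᵐ s ∂ν, s ∈ ⋃ q, Q q := by
    refine hG.mono fun s hs => ?_
    have h1 : ∑' j, f s j ≠ ∞ := ne_top_of_le_ne_top hR (le_trans (ENNReal.tsum_le_tsum fun j =>
      mul_le_mul_left (pow_le_pow_right₀ one_le_two (Nat.mul_le_mul_right _ (by omega))) _) hs.2.2)
    have h2 : f s 0 = ν univ := by simp [f, hG.mass hs.2.1]
    obtain ⟨j, hj, hmax⟩ := Set.exists_max_image _ (f s)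
      (ENNReal.finite_const_le_of_tsum_ne_top h1 h0) ⟨0, h2.ge⟩
    have h3 : s ∈ ⋃ j, disjointed P j := by
      rw [iUnion_disjointed]
      refine mem_iUnion.2 ⟨j, fun i => ?_⟩
      by_cases hi : ν univ ≤ f s i
      · exact hmax i hi
      · exact (not_le.1 hi).le.trans hj
    obtain ⟨j', hj'⟩ := mem_iUnion.1 h3
    exact mem_iUnion.2 ⟨(j', cell (b + j') s), hj', rfl⟩
  have hres := Measure.restrict_eq_self_of_ae_mem hcov
  have htot : ∑' q, ν (Q q) = ν univ := by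
    rw [← measure_iUnion hQd hQm, ← Measure.restrict_apply_univ, hres]
  have hm1 : ν univ ≠ ∞ := measure_ne_top _ _
  have hpiece : ∀ q, ∫⁻ s in Q q, ∑ w, V w s * rows (Ed d) k (obs s ⁻¹' (nxt ⁻¹' {w})) ∂ν ≤
      (a + 2⁻¹ ^ k + K * 2 ^ (2 * (μ1 + 11 * k + 5 * d + 5)) * R * 2 ^ (β * b) * (ν univ)⁻¹) *
        ν (Q q) + 2⁻¹ ^ (k + 1) * (2⁻¹ ^ q.1 * ν (cell (b + q.1) ⁻¹' {q.2})) := by
    rintro ⟨j, z'⟩
    have hQ : ∀ s ∈ Q (j, z'), (∀ i, f s i ≤ f s j) ∧ cell (b + j) s = z' ∧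
        Cs (b + j) s = cell (b + j) ⁻¹' {z'} := fun s hs =>
      ⟨disjointed_subset P j hs.1, hs.2, by
        rw [← (show cell (b + j) s = z' from hs.2)]; rfl⟩
    have h1 := piece hd hk hσ hVm hV1 hV nxt hn (ν.restrict (Q (j, z'))) (t0 := b + j)
      (e := μ1 + 11 * k + 5 * d + 5 + j) (z := z') (ρ0 := ν (cell (b + j) ⁻¹' {z'}))
      (l := R * (ν univ)⁻¹ * 2 ^ (2 * (μ1 + 11 * k + 5 * d + 5)) * 2⁻¹ ^ (β * j))
      (measure_ne_top _ _)
      (by rw [Measure.restrict_apply_univ]; exact measure_mono inter_subset_right)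
      (mul_ne_zero (mul_ne_zero (mul_ne_zero hR0 (ENNReal.inv_ne_zero.2 hm1)) (two_pow_ne_zero _))
        (half_pow_ne_zero _))
      (ENNReal.mul_ne_top (ENNReal.mul_ne_top (ENNReal.mul_ne_top hR (ENNReal.inv_ne_top.2 h0))
        (two_pow_ne_top _)) (half_pow_ne_top _))
      (fun i => by
        filter_upwards [ae_restrict_mem (hQm (j, z'))] with s hs
        obtain ⟨h2, -, h4⟩ := hQ s hs
        have h5 := h2 (j + i)
        simp only [f, h4, ← add_assoc] at h5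
        refine (Measure.restrict_le_self _).trans ?_
        calc _ = 2 ^ ((3 * k + 1) * (j + i)) * ν (Cs (b + j + i) s) *
              2⁻¹ ^ ((3 * k + 1) * (j + i)) := by rw [mul_right_comm, two_cancel, one_mul]
          _ ≤ _ := mul_le_mul_left h5 _
          _ = ν (cell (b + j) ⁻¹' {z'}) * 2⁻¹ ^ ((3 * k + 1) * i) *
              (2 ^ ((3 * k + 1) * j) * 2⁻¹ ^ ((3 * k + 1) * j)) := by ring
          _ = _ := by rw [two_cancel, mul_one])
      (by
        filter_upwards [ae_restrict_mem (hQm (j, z')), ae_restrict_of_ae hG] with s hs hs'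
        obtain ⟨h2, h3, h4⟩ := hQ s hs
        refine ⟨hs'.1, h3, (pot_mono _ Measure.restrict_le_self _ _).trans
          ((pot_shift _ _ _ _ _).trans ((mul_le_mul_left hs'.2.2 _).trans ?_))⟩
        have h5 := h2 0
        simp only [f, h4, mul_zero, pow_zero, one_mul, add_zero, hG.mass hs'.2.1] at h5
        calc _ = R * 2⁻¹ ^ ((β + 3 * k + 3) * j) * ((ν univ)⁻¹ * ν univ) := by
              rw [ENNReal.inv_mul_cancel h0 hm1, mul_one]
          _ ≤ R * 2⁻¹ ^ ((β + 3 * k + 3) * j) *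
              ((ν univ)⁻¹ * (2 ^ ((3 * k + 1) * j) * ν (cell (b + j) ⁻¹' {z'}))) := by gcongr
          _ = R * 2⁻¹ ^ ((β + 2) * j) * (ν univ)⁻¹ * ν (cell (b + j) ⁻¹' {z'}) *
              (2 ^ ((3 * k + 1) * j) * 2⁻¹ ^ ((3 * k + 1) * j)) := by ring
          _ = R * 2⁻¹ ^ ((β + 2) * j) * (ν univ)⁻¹ * ν (cell (b + j) ⁻¹' {z'}) *
              (2 ^ (2 * (μ1 + 11 * k + 5 * d + 5)) * 2⁻¹ ^ (2 * (μ1 + 11 * k + 5 * d + 5))) := by
              rw [two_cancel, two_cancel]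
          _ = _ := by ring)
    refine h1.trans (le_of_eq ?_)
    rw [Measure.restrict_apply_univ]
    congr 1
    · congr 2
      calc _ = K * 2 ^ (2 * (μ1 + 11 * k + 5 * d + 5)) * R * 2 ^ (β * b) * (ν univ)⁻¹ *
            (2 ^ (β * j) * 2⁻¹ ^ (β * j)) := by ring
        _ = _ := by rw [two_cancel, mul_one]
    · calc _ = 2⁻¹ ^ (k + 1) * (2⁻¹ ^ j * ν (cell (b + j) ⁻¹' {z'})) *
            (2 ^ (μ1 + 10 * k + 5 * d + 4) * 2⁻¹ ^ (μ1 + 10 * k + 5 * d + 4)) := by ring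
        _ = _ := by rw [two_cancel, mul_one]
  conv_lhs => rw [← hres, lintegral_iUnion hQm hQd]
  refine (ENNReal.tsum_le_tsum hpiece).trans (le_of_eq ?_)
  rw [ENNReal.tsum_add, ENNReal.tsum_mul_left, ENNReal.tsum_mul_left, htot, ENNReal.tsum_prod']
  simp only [ENNReal.tsum_mul_left, tsum_cells, ENNReal.tsum_mul_right, geom_two]
  calc _ = (a + 2⁻¹ ^ k + 2⁻¹ ^ k * (2 ^ 1 * 2⁻¹ ^ 1)) * ν univ +
        K * 2 ^ (2 * (μ1 + 11 * k + 5 * d + 5)) * R * 2 ^ (β * b) * ((ν univ)⁻¹ * ν univ) := by ring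
    _ = _ := by rw [two_cancel, ENNReal.inv_mul_cancel h0 hm1]; ring

end Vale.Agent.P309
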