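import Vale.Agent.P309.Gauss

/-! The replica bound: the joint law of a block of rows and labels is, up to a small remainder,
dominated by a multiple of the reference measure. -/

open MeasureTheory ProbabilityTheory Set Filter Topology Module
open scoped RealInnerProductSpace ENNReal

set_option linter.unusedSectionVars false

namespace Vale.Agent.P309

variable {E : Type*} [NormedAddCommGroup E] [InnerProductSpace ℝ E] [FiniteDimensional ℝ E]
  [MeasurableSpace E] [BorelSpace E]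

/-- reference measure on one (row, label) pair -/
noncomputable abbrev lam1 (E : Type*) [NormedAddCommGroup E] [InnerProductSpace ℝ E]
    [FiniteDimensional ℝ E] [MeasurableSpace E] [BorelSpace E] : Measure (E × ℝ) :=
  (stdGaussian E).prod volume

/-- reference measure on a block -/
noncomputable abbrev Lam (E : Type*) [NormedAddCommGroup E] [InnerProductSpace ℝ E]
    [FiniteDimensional ℝ E] [MeasurableSpace E] [BorelSpace E] (k : ℕ) :
    Measure (Fin k → E × ℝ) :=
  Measure.pi fun _ => lam1 E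

/-- independent Gaussian rows -/
noncomputable abbrev rows (E : Type*) [NormedAddCommGroup E] [InnerProductSpace ℝ E]
    [FiniteDimensional ℝ E] [MeasurableSpace E] [BorelSpace E] (k : ℕ) : Measure (Fin k → E) :=
  Measure.pi fun _ => stdGaussian E

/-- rows with their exact labels -/
noncomputable def obs {k : ℕ} (s : E) (X : Fin k → E) : Fin k → E × ℝ := fun r => (X r, ⟪X r, s⟫)

/-- distance to a subspace -/
noncomputable def dperp (W : Submodule ℝ E) (v : E) : ℝ := ‖Wᗮ.starProjection v‖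

lemma continuous_dperp (W : Submodule ℝ E) : Continuous (dperp W) := by
  unfold dperp; fun_prop

lemma continuous_obs {k : ℕ} : Continuous fun q : E × (Fin k → E) => obs q.1 q.2 := by
  unfold obs; fun_prop

lemma shear (s0 : E) {f : E × ℝ → ℝ≥0∞} (hf : Measurable f) :
    ∫⁻ p, f p ∂lam1 E = ∫⁻ z, ∫⁻ x, f (x, z + ⟪x, s0⟫) ∂stdGaussian E := by
  rw [lintegral_lintegral_swap (by fun_prop), lintegral_prod _ hf.aemeasurable]
  congr 1; funext x
  exact (lintegral_add_right_eq_self (fun y => f (x, y)) _).symm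

lemma row_chain {κ : ℝ → ℝ≥0∞} (hκ : Measurable κ) (h1 : ∫⁻ z, κ z ≤ 1)
    {f : E × ℝ → ℝ≥0∞} (hf : Measurable f) {s0 s : E} {W : Submodule ℝ E}
    (hinv : ∀ u ∈ Wᗮ, ∀ x y, f (x + u, y + ⟪u, s0⟫) = f (x, y)) (hD : 0 < dperp W (s - s0)) :
    ∫⁻ p, κ (p.2 - ⟪p.1, s⟫) * f p ∂lam1 E ≤
      (ENNReal.ofReal (dperp W (s - s0)))⁻¹ * ∫⁻ p, f p ∂lam1 E := by
  rw [shear s0 (by fun_prop), shear s0 hf, ← lintegral_const_mul _ (by fun_prop)]
  refine lintegral_mono fun z => ?_
  set D := dperp W (s - s0) with hDdef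
  set w := Wᗮ.starProjection (s - s0) with hw
  have hwW : w ∈ Wᗮ := Submodule.starProjection_apply_mem _ _
  have hn : ‖w‖ = D := rfl
  have hu : ‖D⁻¹ • w‖ = 1 := by
    rw [norm_smul, hn, Real.norm_eq_abs, abs_of_pos (inv_pos.2 hD), inv_mul_cancel₀ hD.ne']
  have hi : ⟪s - s0, D⁻¹ • w⟫ = D := by
    have h0 : ⟪s - s0 - w, w⟫ = 0 := Submodule.starProjection_inner_eq_zero _ _ hwW
    rw [inner_sub_left, real_inner_self_eq_norm_sq, hn, sub_eq_zero] at h0
    rw [inner_smul_right, h0]; field_simp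
  have := row_bound (F := fun x => f (x, z + ⟪x, s0⟫)) (by fun_prop) hu (fun x τ => by
    have := hinv (τ • D⁻¹ • w) (Submodule.smul_mem _ _ (Submodule.smul_mem _ _ hwW)) x
      (z + ⟪x, s0⟫)
    rw [← this, inner_add_left, add_assoc]) hD hi hκ h1 z
  refine le_trans (le_of_eq ?_) this
  congr 1; funext x
  simp only [inner_sub_right]
  congr 2; ring

/-- smoothed likelihood of a block -/
noncomputable def Kr (κ : ℝ → ℝ≥0∞) {k : ℕ} (p : Fin k → E × ℝ) (s : E) : ℝ≥0∞ :=
  ∏ r, κ ((p r).2 - ⟪(p r).1, s⟫)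

lemma measurable_Kr {κ : ℝ → ℝ≥0∞} (hκ : Measurable κ) {k : ℕ} :
    Measurable fun q : (Fin k → E × ℝ) × E => Kr κ q.1 q.2 := by
  unfold Kr
  exact Finset.measurable_prod _ fun r _ => by fun_prop

lemma chain (ν : Measure E) [IsFiniteMeasure ν] {κ : ℝ → ℝ≥0∞} (hκ : Measurable κ)
    (h1 : ∫⁻ z, κ z ≤ 1) {k : ℕ} (hk : k ≠ 0) {B : ℝ≥0∞} (hB : B ≠ ∞) (s0 : E)
    (hT : ∀ W : Submodule ℝ E, finrank ℝ W ≤ k →
      ∫⁻ s, (ENNReal.ofReal (dperp W (s - s0)))⁻¹ ^ k ∂ν ≤ B) (m : ℕ) :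
    ∀ (W : Submodule ℝ E) (f : E × ℝ → ℝ≥0∞), finrank ℝ W + m ≤ k → Measurable f →
      (∀ u ∈ Wᗮ, ∀ x y, f (x + u, y + ⟪u, s0⟫) = f (x, y)) →
      ∫⁻ p, (∫⁻ s, Kr κ p s ∂ν) ^ m * ∏ r, f (p r) ∂Lam E k ≤ B ^ m * (∫⁻ p, f p ∂lam1 E) ^ k := by
  have hK := measurable_Kr (E := E) hκ (k := k)
  have hq : Measurable fun p : Fin k → E × ℝ => ∫⁻ s, Kr κ p s ∂ν := hK.lintegral_prod_right'
  induction m with
  | zero =>
    intro W f _ hf _
    simp only [pow_zero, one_mul]
    rw [lintegral_pi_prod _ (fun _ => f) fun _ => hf]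
    simp
  | succ m ih =>
    intro W f hW hf hinv
    have hP : Measurable fun p : Fin k → E × ℝ => ∏ r, f (p r) :=
      Finset.measurable_prod _ fun r _ => by fun_prop
    have e : ∀ p : Fin k → E × ℝ, (∫⁻ s, Kr κ p s ∂ν) ^ (m + 1) * ∏ r, f (p r) =
        ∫⁻ s, (∫⁻ s, Kr κ p s ∂ν) ^ m * (Kr κ p s * ∏ r, f (p r)) ∂ν := by
      intro p
      have hs : Measurable fun s => Kr κ p s := hK.comp measurable_prodMk_left
      rw [lintegral_const_mul _ (hs.mul_const _), lintegral_mul_const _ hs, pow_succ, mul_assoc]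
    simp_rw [e]
    rw [lintegral_lintegral_swap
      ((((hq.comp measurable_fst).pow_const m).mul (hK.mul (hP.comp measurable_fst))).aemeasurable)]
    have hDm : Measurable fun s => (ENNReal.ofReal (dperp W (s - s0)))⁻¹ ^ k := by
      have := (continuous_dperp W).measurable
      fun_prop
    have hT' := hT W (by omega)
    have hae := ae_lt_top hDm (ne_top_of_le_ne_top hB hT')
    calc _ ≤ ∫⁻ s, B ^ m * (∫⁻ p, f p ∂lam1 E) ^ k * (ENNReal.ofReal (dperp W (s - s0)))⁻¹ ^ k ∂ν := by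
          refine lintegral_mono_ae (hae.mono fun s hs => ?_)
          have hD : 0 < dperp W (s - s0) := by
            by_contra h
            rw [ENNReal.ofReal_of_nonpos (not_lt.1 h)] at hs
            simp [hk] at hs
          have := ih (W ⊔ ℝ ∙ (s - s0)) (fun p => κ (p.2 - ⟪p.1, s⟫) * f p) (by
              have h2 := Submodule.finrank_add_le_finrank_add_finrank W (ℝ ∙ (s - s0))
              have h3 : finrank ℝ (ℝ ∙ (s - s0)) ≤ 1 := by
                simpa using finrank_span_le_card ({s - s0} : Set E)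
              omega) (by fun_prop) (fun u hu x y => by
              have hu1 : u ∈ Wᗮ := Submodule.orthogonal_le le_sup_left hu
              have hu2 : ⟪s - s0, u⟫ = 0 :=
                hu _ (Submodule.mem_sup_right (Submodule.mem_span_singleton_self _))
              rw [inner_sub_left, sub_eq_zero] at hu2
              simp only [hinv u hu1, inner_add_left]
              rw [real_inner_comm s u, real_inner_comm s0 u, hu2]
              congr 2; ring)
          simp only [Finset.prod_mul_distrib] at this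
          refine this.trans ?_
          rw [mul_assoc, ← mul_pow, mul_comm (∫⁻ p, f p ∂lam1 E)]
          exact mul_le_mul_right (pow_le_pow_left' (row_chain hκ h1 hf hinv hD) k) _
      _ ≤ _ := by
          rw [lintegral_const_mul _ hDm, pow_succ, mul_right_comm]
          exact mul_le_mul_left (mul_le_mul_right hT' _) _

lemma moment (ν : Measure E) [IsFiniteMeasure ν] {κ : ℝ → ℝ≥0∞} (hκ : Measurable κ)
    (h1 : ∫⁻ z, κ z ≤ 1) {k : ℕ} (hk : k ≠ 0) {B : ℝ≥0∞} (hB : B ≠ ∞)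
    (hT : ∀ᵐ s0 ∂ν, ∀ W : Submodule ℝ E, finrank ℝ W ≤ k →
      ∫⁻ s, (ENNReal.ofReal (dperp W (s - s0)))⁻¹ ^ k ∂ν ≤ B) :
    ∫⁻ p, (∫⁻ s, Kr κ p s ∂ν) ^ (k + 1) ∂Lam E k ≤ ν univ * B ^ k := by
  have hK := measurable_Kr (E := E) hκ (k := k)
  have hq : Measurable fun p : Fin k → E × ℝ => ∫⁻ s, Kr κ p s ∂ν := hK.lintegral_prod_right'
  have e : ∀ p : Fin k → E × ℝ, (∫⁻ s, Kr κ p s ∂ν) ^ (k + 1) =
      ∫⁻ s, (∫⁻ s, Kr κ p s ∂ν) ^ k * Kr κ p s ∂ν := by
    intro p
    have hs : Measurable fun s => Kr κ p s := hK.comp measurable_prodMk_left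
    rw [lintegral_const_mul _ hs, pow_succ]
  simp_rw [e]
  rw [lintegral_lintegral_swap ((((hq.comp measurable_fst).pow_const k).mul hK).aemeasurable),
    mul_comm, ← lintegral_const]
  refine lintegral_mono_ae (hT.mono fun s0 hs0 => ?_)
  have := chain ν hκ h1 hk hB s0 hs0 k ⊥ (fun p => κ (p.2 - ⟪p.1, s0⟫)) (by simp) (by fun_prop)
    (fun u _ x y => by simp only [inner_add_left]; congr 1; ring)
  refine this.trans (mul_le_of_le_one_right' (pow_le_one' ?_ _))
  rw [shear s0 (by fun_prop)]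
  simpa using h1

lemma pi_withDensity {α : Type*} [MeasurableSpace α] (μ : Measure α) [SigmaFinite μ]
    {f : α → ℝ≥0∞} (hf : Measurable f) [SigmaFinite (μ.withDensity f)] (k : ℕ) :
    Measure.pi (fun _ : Fin k => μ.withDensity f) =
      (Measure.pi fun _ : Fin k => μ).withDensity fun p => ∏ r, f (p r) := by
  refine Measure.pi_eq fun s hs => ?_
  rw [withDensity_apply _ (MeasurableSet.univ_pi hs),
    ← lintegral_indicator (MeasurableSet.univ_pi hs)]
  simp_rw [fun i => withDensity_apply (μ := μ) f (hs i), fun i => (lintegral_indicator (μ := μ) (hs i) f).symm]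
  rw [← lintegral_pi_prod μ (fun i => (s i).indicator f) fun i => hf.indicator (hs i)]
  congr 1; funext p
  by_cases h : p ∈ univ.pi s
  · rw [indicator_of_mem h]
    exact Finset.prod_congr rfl fun i _ => (indicator_of_mem (h i trivial) _).symm
  · rw [indicator_of_notMem h]
    simp only [Set.mem_pi, mem_univ, true_imp_iff, not_forall] at h
    obtain ⟨i, hi⟩ := h
    exact (Finset.prod_eq_zero (Finset.mem_univ i) (indicator_of_notMem hi _)).symm

lemma smooth_row (s : E) {η : ℝ} (hη : η ≠ 0) :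
    MeasurePreserving (fun p : E × ℝ => (p.1, ⟪p.1, s⟫ + η * p.2))
      ((stdGaussian E).prod (gaussianReal 0 1))
      ((lam1 E).withDensity fun p =>
        gaussianPDF 0 (NNReal.mk (η ^ 2) (sq_nonneg _)) (p.2 - ⟪p.1, s⟫)) := by
  have hv : NNReal.mk (η ^ 2) (sq_nonneg _) ≠ 0 := by
    intro h; exact hη (pow_eq_zero_iff two_ne_zero |>.1 (congrArg NNReal.toReal h))
  refine ⟨by fun_prop, Measure.ext fun A hA => ?_⟩
  have hm : Measurable (A.indicator (1 : E × ℝ → ℝ≥0∞)) := measurable_one.indicator hA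
  rw [← lintegral_indicator_one hA, ← lintegral_indicator_one hA, lintegral_map hm (by fun_prop),
    lintegral_withDensity_eq_lintegral_mul _ (by fun_prop) hm, shear s (by fun_prop),
    lintegral_prod_symm _ (by fun_prop)]
  have e := gaussianReal_map_const_mul (μ := 0) (v := 1) η
  rw [mul_zero, mul_one, gaussianReal_of_var_ne_zero _ hv] at e
  have hG : Measurable fun z : ℝ => ∫⁻ x, A.indicator (1 : E × ℝ → ℝ≥0∞) (x, ⟪x, s⟫ + z)
      ∂stdGaussian E := Measurable.lintegral_prod_left (by fun_prop)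
  rw [← lintegral_map hG (by fun_prop), e, lintegral_withDensity_eq_lintegral_mul _ (by fun_prop) hG]
  congr 1; funext z
  simp only [Pi.mul_apply, add_sub_cancel_right]
  rw [lintegral_const_mul _ (by fun_prop)]
  simp only [add_comm]

lemma le_split (q τ : ℝ≥0∞) (h0 : τ ≠ 0) (hτ : τ ≠ ∞) (k : ℕ) : q ≤ τ + q ^ (k + 1) / τ ^ k := by
  rcases le_total q τ with h | h
  · exact h.trans le_self_add
  · refine le_trans ?_ le_add_self
    rw [ENNReal.le_div_iff_mul_le (Or.inl (pow_ne_zero _ h0)) (Or.inl (ENNReal.pow_ne_top hτ)),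
      pow_succ']
    exact mul_le_mul_right (pow_le_pow_left' h k) _

lemma smooth_bound (ν : Measure E) [IsFiniteMeasure ν] {k : ℕ} (hk : k ≠ 0) {B τ : ℝ≥0∞}
    (hB : B ≠ ∞) (h0 : τ ≠ 0) (hτ : τ ≠ ∞)
    (hT : ∀ᵐ s0 ∂ν, ∀ W : Submodule ℝ E, finrank ℝ W ≤ k →
      ∫⁻ s, (ENNReal.ofReal (dperp W (s - s0)))⁻¹ ^ k ∂ν ≤ B)
    {F : Set (Fin k → E × ℝ)} (hF : MeasurableSet F) {η : ℝ} (hη : η ≠ 0) :
    ∫⁻ s, (Measure.pi fun _ : Fin k => (stdGaussian E).prod (gaussianReal 0 1))
      ((fun p r => ((p r).1, ⟪(p r).1, s⟫ + η * (p r).2)) ⁻¹' F) ∂ν ≤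
      τ * Lam E k F + ν univ * (B / τ) ^ k := by
  have hv : NNReal.mk (η ^ 2) (sq_nonneg _) ≠ 0 := by
    intro h; exact hη (pow_eq_zero_iff two_ne_zero |>.1 (congrArg NNReal.toReal h))
  set κ := gaussianPDF 0 (NNReal.mk (η ^ 2) (sq_nonneg _)) with hκdef
  have hκ : Measurable κ := measurable_gaussianPDF _ _
  have hK := measurable_Kr (E := E) hκ (k := k)
  have hq : Measurable fun p : Fin k → E × ℝ => ∫⁻ s, Kr κ p s ∂ν := hK.lintegral_prod_right'
  have e : ∀ s : E, (Measure.pi fun _ : Fin k => (stdGaussian E).prod (gaussianReal 0 1))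
      ((fun p r => ((p r).1, ⟪(p r).1, s⟫ + η * (p r).2)) ⁻¹' F) =
      ∫⁻ p in F, Kr κ p s ∂Lam E k := by
    intro s
    have h := smooth_row s hη
    have : IsProbabilityMeasure ((lam1 E).withDensity fun p => κ (p.2 - ⟪p.1, s⟫)) := by
      rw [← h.map_eq]; exact Measure.isProbabilityMeasure_map h.measurable.aemeasurable
    have h2 := measurePreserving_pi (fun _ : Fin k => (stdGaussian E).prod (gaussianReal 0 1))
      (fun _ : Fin k => (lam1 E).withDensity fun p => κ (p.2 - ⟪p.1, s⟫)) fun _ => h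
    rw [h2.measure_preimage hF.nullMeasurableSet, pi_withDensity _ (by fun_prop),
      withDensity_apply _ hF]
    rfl
  simp_rw [e]
  rw [lintegral_lintegral_swap (f := fun s p => Kr κ p s) (hK.comp measurable_swap).aemeasurable]
  calc _ ≤ ∫⁻ p in F, τ + (∫⁻ s, Kr κ p s ∂ν) ^ (k + 1) / τ ^ k ∂Lam E k :=
        lintegral_mono fun p => le_split _ _ h0 hτ k
    _ ≤ τ * Lam E k F + (∫⁻ p, (∫⁻ s, Kr κ p s ∂ν) ^ (k + 1) ∂Lam E k) / τ ^ k := by
        rw [lintegral_add_left measurable_const, setLIntegral_const]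
        refine add_le_add le_rfl ((setLIntegral_le_lintegral _ _).trans (le_of_eq ?_))
        simp only [div_eq_mul_inv]
        rw [lintegral_mul_const _ (hq.pow_const _)]
    _ ≤ _ := by
        refine add_le_add le_rfl ?_
        rw [div_eq_mul_inv B, mul_pow, ← ENNReal.inv_pow, ← mul_assoc, div_eq_mul_inv]
        exact mul_le_mul_left
          (moment ν hκ (lintegral_gaussianPDF_eq_one 0 hv).le hk hB hT) _

theorem replica (ν : Measure E) [IsFiniteMeasure ν] {k : ℕ} (hk : k ≠ 0) {B τ : ℝ≥0∞}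
    (hB : B ≠ ∞) (h0 : τ ≠ 0) (hτ : τ ≠ ∞)
    (hT : ∀ᵐ s0 ∂ν, ∀ W : Submodule ℝ E, finrank ℝ W ≤ k →
      ∫⁻ s, (ENNReal.ofReal (dperp W (s - s0)))⁻¹ ^ k ∂ν ≤ B)
    {F : Set (Fin k → E × ℝ)} (hF : MeasurableSet F) :
    ∫⁻ s, rows E k (obs s ⁻¹' F) ∂ν ≤ τ * Lam E k F + ν univ * (B / τ) ^ k := by
  have hopen : ∀ U : Set (Fin k → E × ℝ), IsOpen U →
      ∫⁻ s, rows E k (obs s ⁻¹' U) ∂ν ≤ τ * Lam E k U + ν univ * (B / τ) ^ k := by
    intro U hU
    set Pk := Measure.pi fun _ : Fin k => (stdGaussian E).prod (gaussianReal 0 1) with hPk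
    let φ : ℝ → E × (Fin k → E × ℝ) → Fin k → E × ℝ :=
      fun η q r => ((q.2 r).1, ⟪(q.2 r).1, q.1⟫ + η * (q.2 r).2)
    have hφ : Continuous fun z : ℝ × (E × (Fin k → E × ℝ)) => φ z.1 z.2 := by
      simp only [φ]; fun_prop
    have hφm : ∀ η, MeasurableSet (φ η ⁻¹' U) := fun η =>
      (hU.preimage (hφ.comp (Continuous.prodMk_right η))).measurableSet
    have e : ∀ η, (ν.prod Pk) (φ η ⁻¹' U) = ∫⁻ s, Pk
        ((fun p r => ((p r).1, ⟪(p r).1, s⟫ + η * (p r).2)) ⁻¹' U) ∂ν := fun η =>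
      Measure.prod_apply (hφm η)
    have e0 : ∫⁻ s, rows E k (obs s ⁻¹' U) ∂ν = (ν.prod Pk) (φ 0 ⁻¹' U) := by
      rw [e]
      congr 1; funext s
      have h2 := measurePreserving_pi (fun _ : Fin k => (stdGaussian E).prod (gaussianReal 0 1))
        (fun _ : Fin k => stdGaussian E) fun _ => measurePreserving_fst
      have hm : MeasurableSet (obs s ⁻¹' U) :=
        (hU.preimage (continuous_obs.comp (Continuous.prodMk_right s))).measurableSet
      rw [← h2.measure_preimage hm.nullMeasurableSet]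
      congr 1
      ext p
      have : (obs s fun i => (p i).1) = fun r => ((p r).1, ⟪(p r).1, s⟫) := rfl
      simp [this]
    rw [e0]
    have hsub : φ 0 ⁻¹' U ⊆ ⋃ N : ℕ, ⋂ n ≥ N, φ (1 / ((n : ℝ) + 1)) ⁻¹' U := by
      intro q hq
      have ht : Tendsto (fun n : ℕ => φ (1 / ((n : ℝ) + 1)) q) atTop (𝓝 (φ 0 q)) :=
        ((hφ.comp (Continuous.prodMk_left q)).tendsto 0).comp tendsto_one_div_add_atTop_nhds_zero_nat
      obtain ⟨N, hN⟩ := eventually_atTop.1 (ht.eventually (hU.mem_nhds hq))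
      exact mem_iUnion.2 ⟨N, mem_iInter₂.2 hN⟩
    refine (measure_mono hsub).trans ?_
    rw [Monotone.measure_iUnion fun a b hab => biInter_subset_biInter_left fun n hn => hab.trans hn]
    refine iSup_le fun n => (measure_mono (biInter_subset_of_mem (le_refl n))).trans ?_
    rw [e]
    exact smooth_bound ν hk hB h0 hτ hT hU.measurableSet (by positivity)
  rw [F.measure_eq_iInf_isOpen (Lam E k)]
  simp only [ENNReal.mul_iInf_of_ne h0 hτ, ENNReal.iInf_add, le_iInf_iff]
  intro U hFU hU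
  exact (lintegral_mono fun s => measure_mono (preimage_mono hFU)).trans (hopen U hU)

end Vale.Agent.P309
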