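import Vale.Agent.P309.Geom

/-! One block of samples: the posterior cannot concentrate on small sets. -/

open MeasureTheory ProbabilityTheory Set Filter Topology Module Metric
open scoped RealInnerProductSpace ENNReal

set_option linter.unusedSectionVars false

namespace Vale.Agent.P309

variable {d : ℕ}

lemma two_cancel (a : ℕ) : (2 : ℝ≥0∞) ^ a * 2⁻¹ ^ a = 1 := by
  rw [← mul_pow, ENNReal.mul_inv_cancel two_ne_zero ENNReal.ofNat_ne_top, one_pow]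

lemma geom_two : ∑' i : ℕ, (2⁻¹ : ℝ≥0∞) ^ i = 2 := by
  rw [ENNReal.tsum_geometric, ENNReal.one_sub_inv_two, inv_inv]

lemma ofReal_half_pow (a : ℕ) : ENNReal.ofReal (2⁻¹ ^ a) = 2⁻¹ ^ a := by
  rw [ENNReal.ofReal_pow (by norm_num), ENNReal.ofReal_inv_of_pos two_pos, ENNReal.ofReal_ofNat]

lemma half_pow_ne_zero (a : ℕ) : (2⁻¹ : ℝ≥0∞) ^ a ≠ 0 := pow_ne_zero _ (by simp)
lemma half_pow_ne_top (a : ℕ) : (2⁻¹ : ℝ≥0∞) ^ a ≠ ∞ := ENNReal.pow_ne_top (by simp)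
lemma two_pow_ne_zero (a : ℕ) : (2 : ℝ≥0∞) ^ a ≠ 0 := pow_ne_zero _ (by simp)
lemma two_pow_ne_top (a : ℕ) : (2 : ℝ≥0∞) ^ a ≠ ∞ := ENNReal.pow_ne_top (by simp)
lemma half_pow_le_one (a : ℕ) : (2⁻¹ : ℝ≥0∞) ^ a ≤ 1 := pow_le_one' (by simp) _

lemma dyadic (Y : ℝ≥0∞) (m : ℕ) :
    Y ^ m ≤ 1 + ∑' i : ℕ, 2 ^ (m * (i + 1)) * {Y : ℝ≥0∞ | 2 ^ i ≤ Y}.indicator 1 Y := by
  rcases le_total Y 1 with h | h
  · exact (pow_le_one' h m).trans le_self_add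
  refine le_trans ?_ le_add_self
  by_cases hY : Y = ∞
  · subst hY
    refine le_top.trans ((ENNReal.tsum_const_eq_top_of_ne_zero (α := ℕ) one_ne_zero).symm.le.trans
      (ENNReal.tsum_le_tsum fun i => ?_))
    rw [indicator_of_mem (by simp), Pi.one_apply, mul_one]
    exact one_le_pow₀ one_le_two
  lift Y to NNReal using hY
  obtain ⟨i, h1, h2⟩ := exists_nat_pow_near (x := Y) (y := 2) (by exact_mod_cast h) one_lt_two
  refine le_trans ?_ (ENNReal.le_tsum i)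
  rw [indicator_of_mem (by simp only [mem_setOf_eq]; exact_mod_cast h1), Pi.one_apply, mul_one,
    mul_comm, pow_mul]
  exact pow_le_pow_left' (by exact_mod_cast h2.le) m

lemma tube_int (hd : d ≠ 0) (ν : Measure (Ed d)) [IsFiniteMeasure ν] {k t0 : ℕ} {ρ0 : ℝ≥0∞}
    (hm : ν univ ≤ ρ0) (hcell : ∀ i, ∀ᵐ s ∂ν, ν (Cs (t0 + i) s) ≤ ρ0 * 2⁻¹ ^ ((3 * k + 1) * i))
    {s0 : Ed d} (hdiam : ∀ᵐ s ∂ν, ‖s - s0‖ ≤ 2 * 2⁻¹ ^ t0) (W : Submodule ℝ (Ed d))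
    (hW : finrank ℝ W ≤ k) :
    ∫⁻ s, (2⁻¹ ^ t0 * (ENNReal.ofReal (dperp W (s - s0)))⁻¹) ^ (2 * k) ∂ν ≤
      ρ0 * 2 ^ (3 * k + 5 * d + 2) := by
  have hc := (continuous_dperp W).measurable
  have hY : Measurable fun s => 2⁻¹ ^ t0 * (ENNReal.ofReal (dperp W (s - s0)))⁻¹ := by fun_prop
  have hI : ∀ i : ℕ, MeasurableSet {Y : ℝ≥0∞ | 2 ^ i ≤ Y} := fun i => measurableSet_Ici
  refine (lintegral_mono fun s => dyadic _ _).trans ?_
  have hJ : ∀ i : ℕ, Measurable fun s => (2 : ℝ≥0∞) ^ (2 * k * (i + 1)) *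
      {Y : ℝ≥0∞ | 2 ^ i ≤ Y}.indicator 1 (2⁻¹ ^ t0 * (ENNReal.ofReal (dperp W (s - s0)))⁻¹) :=
    fun i => ((measurable_one.indicator (hI i)).comp hY).const_mul _
  rw [lintegral_add_left measurable_const, lintegral_tsum fun i => (hJ i).aemeasurable]
  have h1 : ∀ i : ℕ, ∫⁻ s, 2 ^ (2 * k * (i + 1)) * {Y : ℝ≥0∞ | 2 ^ i ≤ Y}.indicator 1
      (2⁻¹ ^ t0 * (ENNReal.ofReal (dperp W (s - s0)))⁻¹) ∂ν ≤
      ρ0 * 2 ^ (3 * k + 5 * d) * 2⁻¹ ^ i := by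
    intro i
    rw [lintegral_const_mul' _ _ (two_pow_ne_top _)]
    have h2 : ∫⁻ s, {Y : ℝ≥0∞ | 2 ^ i ≤ Y}.indicator 1
        (2⁻¹ ^ t0 * (ENNReal.ofReal (dperp W (s - s0)))⁻¹) ∂ν ≤
        ν {s | ‖s - s0‖ ≤ 2 * 2⁻¹ ^ t0 ∧ dperp W (s - s0) ≤ 2⁻¹ ^ (t0 + i)} := by
      rw [← lintegral_indicator_one (measurableSet_tube _ _ _ _)]
      refine lintegral_mono_ae (hdiam.mono fun s hs => ?_)
      by_cases h : 2⁻¹ ^ t0 * (ENNReal.ofReal (dperp W (s - s0)))⁻¹ ∈ {Y : ℝ≥0∞ | 2 ^ i ≤ Y}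
      · rw [indicator_of_mem h, indicator_of_mem]
        · exact le_rfl
        refine ⟨hs, ?_⟩
        rw [← ENNReal.ofReal_le_ofReal_iff (by positivity), ofReal_half_pow]
        have h3 : (2 : ℝ≥0∞) ^ i ≤ 2⁻¹ ^ t0 / ENNReal.ofReal (dperp W (s - s0)) := h
        rw [ENNReal.le_div_iff_mul_le (Or.inr (half_pow_ne_zero _))
          (Or.inl ENNReal.ofReal_ne_top)] at h3
        calc _ = 2⁻¹ ^ i * (2 ^ i * ENNReal.ofReal (dperp W (s - s0))) := by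
              rw [← mul_assoc, mul_comm (2⁻¹ ^ i), two_cancel, one_mul]
          _ ≤ 2⁻¹ ^ i * 2⁻¹ ^ t0 := mul_le_mul_right h3 _
          _ = _ := by rw [pow_add, mul_comm]
      · rw [indicator_of_notMem h]; exact zero_le
    refine (mul_le_mul_right (h2.trans (tube_mass hd ν t0 i (hcell i) W hW s0)) _).trans
      (le_of_eq ?_)
    calc _ = ρ0 * 2 ^ (3 * k + 5 * d) * 2⁻¹ ^ i * (2 ^ (3 * k * i) * 2⁻¹ ^ (3 * k * i)) := by ring
      _ = _ := by rw [two_cancel, mul_one]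
  refine (add_le_add le_rfl (ENNReal.tsum_le_tsum h1)).trans ?_
  rw [ENNReal.tsum_mul_left, geom_two, lintegral_const, one_mul]
  calc _ ≤ ρ0 * 2 ^ (3 * k + 5 * d) * 2 + ρ0 * 2 ^ (3 * k + 5 * d) * 2 := by
        refine add_le_add (hm.trans ?_) le_rfl
        rw [mul_assoc]
        exact le_mul_of_one_le_right' (one_le_mul (one_le_pow₀ one_le_two) one_le_two)
    _ = _ := by ring

lemma amgm (u : ℝ≥0∞) (e : ℕ) : u ≤ 2 ^ e + 2⁻¹ ^ e * u ^ 2 := by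
  rcases le_total u (2 ^ e) with h | h
  · exact h.trans le_self_add
  · refine le_trans ?_ le_add_self
    calc u = 2 ^ e * 2⁻¹ ^ e * u := by rw [two_cancel, one_mul]
      _ ≤ u * 2⁻¹ ^ e * u := by gcongr
      _ = _ := by ring

lemma small_int (hd : d ≠ 0) (ν : Measure (Ed d)) [IsFiniteMeasure ν] {k t0 e : ℕ} {ρ0 : ℝ≥0∞}
    (hm : ν univ ≤ ρ0) (hcell : ∀ i, ∀ᵐ s ∂ν, ν (Cs (t0 + i) s) ≤ ρ0 * 2⁻¹ ^ ((3 * k + 1) * i))
    {s0 : Ed d} (hdiam : ∀ᵐ s ∂ν, ‖s - s0‖ ≤ 2 * 2⁻¹ ^ t0) (W : Submodule ℝ (Ed d))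
    (hW : finrank ℝ W ≤ k) {A : Set (Ed d)} (hA : ν A ≤ (2⁻¹ ^ e) ^ 2 * ρ0) :
    ∫⁻ s in A, (ENNReal.ofReal (dperp W (s - s0)))⁻¹ ^ k ∂ν ≤
      2 ^ (t0 * k) * (2⁻¹ ^ e * ρ0 * 2 ^ (3 * k + 5 * d + 3)) := by
  have hc := (continuous_dperp W).measurable
  have e1 : ∀ s, (ENNReal.ofReal (dperp W (s - s0)))⁻¹ ^ k =
      2 ^ (t0 * k) * (2⁻¹ ^ t0 * (ENNReal.ofReal (dperp W (s - s0)))⁻¹) ^ k := by
    intro s
    rw [mul_pow, ← pow_mul, ← mul_assoc, two_cancel, one_mul]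
  simp_rw [e1]
  rw [lintegral_const_mul' _ _ (two_pow_ne_top _)]
  refine mul_le_mul_right ((lintegral_mono fun s => amgm _ e).trans ?_) _
  rw [lintegral_add_left measurable_const, setLIntegral_const,
    lintegral_const_mul' _ _ (half_pow_ne_top _)]
  simp_rw [← pow_mul, mul_comm k 2]
  have h2 := (setLIntegral_le_lintegral A _).trans (tube_int hd ν hm hcell hdiam W hW)
  calc _ ≤ 2 ^ e * ((2⁻¹ ^ e) ^ 2 * ρ0) + 2⁻¹ ^ e * (ρ0 * 2 ^ (3 * k + 5 * d + 2)) := by gcongr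
    _ = 2⁻¹ ^ e * ρ0 * ((2 ^ e * 2⁻¹ ^ e) + 2 ^ (3 * k + 5 * d + 2)) := by ring
    _ ≤ 2⁻¹ ^ e * ρ0 * (2 ^ (3 * k + 5 * d + 2) + 2 ^ (3 * k + 5 * d + 2)) := by
        rw [two_cancel]; gcongr; exact one_le_pow₀ one_le_two
    _ = _ := by ring

lemma lint_exp_abs {a : ℝ} (ha : 0 < a) :
    ∫⁻ z : ℝ, ENNReal.ofReal (Real.exp (3 - |z| / a)) ≤ ENNReal.ofReal (64 * a) := by
  have h3 : Real.exp 3 ≤ 32 := by
    have e : Real.exp 3 = Real.exp 1 ^ 3 := by rw [← Real.exp_nat_mul]; norm_num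
    have := Real.exp_one_lt_d9
    rw [e]
    calc _ ≤ (3 : ℝ) ^ 3 := pow_le_pow_left₀ (Real.exp_pos _).le (by linarith) 3
      _ ≤ _ := by norm_num
  rw [← lintegral_add_compl _ (measurableSet_Iic (a := (0 : ℝ))), compl_Iic,
    setLIntegral_congr_fun (g := fun z => ENNReal.ofReal (Real.exp 3 * Real.exp (a⁻¹ * z)))
      measurableSet_Iic fun z hz => by
        simp only; rw [abs_of_nonpos hz, ← Real.exp_add]; congr 2; ring,
    setLIntegral_congr_fun (s := Ioi 0)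
      (g := fun z => ENNReal.ofReal (Real.exp 3 * Real.exp (-a⁻¹ * z)))
      measurableSet_Ioi fun z hz => by
        simp only; rw [abs_of_pos hz, ← Real.exp_add]; congr 2; ring,
    ← ofReal_integral_eq_lintegral_ofReal
      ((integrableOn_exp_mul_Iic (inv_pos.2 ha) 0).const_mul _) (ae_of_all _ fun _ => by positivity),
    ← ofReal_integral_eq_lintegral_ofReal
      ((integrableOn_exp_mul_Ioi (neg_neg_of_pos (inv_pos.2 ha)) 0).const_mul _)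
      (ae_of_all _ fun _ => by positivity),
    integral_const_mul, integral_const_mul, integral_exp_mul_Iic (inv_pos.2 ha),
    integral_exp_mul_Ioi (neg_neg_of_pos (inv_pos.2 ha))]
  simp only [mul_zero, Real.exp_zero, neg_div_neg_eq, one_div, inv_inv]
  rw [← ENNReal.ofReal_add (by positivity) (by positivity)]
  exact ENNReal.ofReal_le_ofReal (by nlinarith)

lemma good_vol (k : ℕ) (s : Ed d) {a : ℝ} (ha : 0 < a) :
    Lam (Ed d) k {p | ∑ r, |(p r).2 - ⟪(p r).1, s⟫| ≤ 3 * k * a} ≤ ENNReal.ofReal (64 * a) ^ k := by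
  have hm : MeasurableSet {p : Fin k → Ed d × ℝ | ∑ r, |(p r).2 - ⟪(p r).1, s⟫| ≤ 3 * k * a} :=
    measurableSet_le (by fun_prop) (by fun_prop)
  rw [← lintegral_indicator_one hm]
  calc _ ≤ ∫⁻ p : Fin k → Ed d × ℝ, ∏ r,
        ENNReal.ofReal (Real.exp (3 - |(p r).2 - ⟪(p r).1, s⟫| / a)) ∂Lam (Ed d) k := by
        refine lintegral_mono fun p => ?_
        by_cases h : p ∈ {p : Fin k → Ed d × ℝ | ∑ r, |(p r).2 - ⟪(p r).1, s⟫| ≤ 3 * k * a}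
        · rw [indicator_of_mem h, ← ENNReal.ofReal_prod_of_nonneg fun _ _ => (Real.exp_pos _).le,
            ← Real.exp_sum, Pi.one_apply, ENNReal.one_le_ofReal, Real.one_le_exp_iff,
            Finset.sum_sub_distrib, ← Finset.sum_div]
          have : (∑ r, |(p r).2 - ⟪(p r).1, s⟫|) / a ≤ 3 * k := (div_le_iff₀ ha).2 h
          simp only [Finset.sum_const, Finset.card_univ, Fintype.card_fin, nsmul_eq_mul]
          linarith
        · rw [indicator_of_notMem h]; exact zero_le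
    _ = ∏ _r : Fin k, ∫⁻ p, ENNReal.ofReal (Real.exp (3 - |p.2 - ⟪p.1, s⟫| / a)) ∂lam1 (Ed d) :=
        lintegral_pi_prod _
          (fun _ (p : Ed d × ℝ) => ENNReal.ofReal (Real.exp (3 - |p.2 - ⟪p.1, s⟫| / a)))
          fun _ => by fun_prop
    _ ≤ _ := by
        rw [Finset.prod_const, Finset.card_univ, Fintype.card_fin]
        refine pow_le_pow_left' ?_ k
        rw [shear s (by fun_prop)]
        simpa using lint_exp_abs ha

lemma measurable_obs {k : ℕ} (s : Ed d) : Measurable (obs s : (Fin k → Ed d) → _) :=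
  (continuous_obs.comp (Continuous.prodMk_right s)).measurable

lemma measurable_rows_obs {k : ℕ} {F : Set (Fin k → Ed d × ℝ)} (hF : MeasurableSet F) :
    Measurable fun s : Ed d => rows (Ed d) k (obs s ⁻¹' F) :=
  measurable_measure_prodMk_left (continuous_obs.measurable hF)

theorem stage {σ : Type*} [Fintype σ] (hd : d ≠ 0) (ν : Measure (Ed d)) [IsFiniteMeasure ν]
    {k t0 μ1 e : ℕ} (hk : k ≠ 0) (hσ : Fintype.card σ ≤ 2 ^ (μ1 * k)) {ρ0 : ℝ≥0∞} (hρ0 : ρ0 ≠ ∞)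
    (hm : ν univ ≤ ρ0) (hcell : ∀ i, ∀ᵐ s ∂ν, ν (Cs (t0 + i) s) ≤ ρ0 * 2⁻¹ ^ ((3 * k + 1) * i))
    (hdiam : ∀ᵐ s0 ∂ν, ∀ᵐ s ∂ν, ‖s - s0‖ ≤ 2 * 2⁻¹ ^ t0)
    (nxt : (Fin k → Ed d × ℝ) → σ) (hn : ∀ w, MeasurableSet (nxt ⁻¹' {w}))
    (A : σ → Set (Ed d)) (hA : ∀ w, ν (A w) ≤ (2⁻¹ ^ e) ^ 2 * ρ0) :
    ∑ w, ∫⁻ s in A w, rows (Ed d) k (obs s ⁻¹' (nxt ⁻¹' {w})) ∂ν ≤
      2⁻¹ ^ k * ν univ + 2 ^ (μ1 + 10 * k + 5 * d + 4) * 2⁻¹ ^ e * ρ0 := by
  by_cases h0 : ν = 0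
  · simp [h0]
  have hρ : ρ0 ≠ 0 := fun h => h0 (Measure.measure_univ_eq_zero.1 (le_antisymm (h ▸ hm) zero_le))
  obtain ⟨s1, -, hs1⟩ := Measure.exists_mem_of_measure_ne_zero_of_ae
    (Measure.measure_univ_ne_zero.2 h0) (ae_restrict_of_ae hdiam)
  set G : Set (Fin k → Ed d × ℝ) :=
    {p | ∑ r, |(p r).2 - ⟪(p r).1, s1⟫| ≤ 3 * k * (2 * 2⁻¹ ^ t0)} with hG
  have hGm : MeasurableSet G := measurableSet_le (by fun_prop) (by fun_prop)
  set B : ℝ≥0∞ := 2 ^ (t0 * k) * (2⁻¹ ^ e * ρ0 * 2 ^ (3 * k + 5 * d + 3)) with hB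
  have hB0 : B ≠ 0 := mul_ne_zero (two_pow_ne_zero _)
    (mul_ne_zero (mul_ne_zero (half_pow_ne_zero _) hρ) (two_pow_ne_zero _))
  have hB1 : B ≠ ∞ := ENNReal.mul_ne_top (two_pow_ne_top _)
    (ENNReal.mul_ne_top (ENNReal.mul_ne_top (half_pow_ne_top _) hρ0) (two_pow_ne_top _))
  have h1 : ∀ w, ∫⁻ s in A w, rows (Ed d) k (obs s ⁻¹' (nxt ⁻¹' {w})) ∂ν ≤
      ∫⁻ s, rows (Ed d) k (obs s ⁻¹' (nxt ⁻¹' {w} ∩ Gᶜ)) ∂ν +
        (2 ^ μ1 * B * Lam (Ed d) k (nxt ⁻¹' {w} ∩ G) + 2⁻¹ ^ e * ρ0 * 2⁻¹ ^ (μ1 * k)) := by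
    intro w
    have h2 := replica (ν.restrict (A w)) hk hB1 (mul_ne_zero (two_pow_ne_zero μ1) hB0)
      (ENNReal.mul_ne_top (two_pow_ne_top μ1) hB1)
      (ae_restrict_of_ae (hdiam.mono fun s0 hs0 W hW =>
        small_int hd ν hm hcell hs0 W hW (hA w))) ((hn w).inter hGm)
    calc _ ≤ ∫⁻ s in A w, rows (Ed d) k (obs s ⁻¹' (nxt ⁻¹' {w} ∩ Gᶜ)) +
          rows (Ed d) k (obs s ⁻¹' (nxt ⁻¹' {w} ∩ G)) ∂ν := by
          refine lintegral_mono fun s => (measure_mono ?_).trans (measure_union_le _ _)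
          rw [← preimage_union, ← inter_union_distrib_left, compl_union_self, inter_univ]
      _ ≤ _ := by
          rw [lintegral_add_left (measurable_rows_obs ((hn w).inter hGm.compl))]
          refine add_le_add (setLIntegral_le_lintegral _ _) (h2.trans (add_le_add le_rfl ?_))
          have e1 : B / (2 ^ μ1 * B) = 2⁻¹ ^ μ1 := by
            rw [ENNReal.div_eq_inv_mul, ENNReal.mul_inv (Or.inl (two_pow_ne_zero _))
              (Or.inl (two_pow_ne_top _)), mul_assoc, ENNReal.inv_mul_cancel hB0 hB1, mul_one,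
              ENNReal.inv_pow]
          rw [e1, ← pow_mul, Measure.restrict_apply_univ]
          refine mul_le_mul_left ((hA w).trans (mul_le_mul_left ?_ _)) _
          rw [sq]; exact mul_le_of_le_one_right' (half_pow_le_one _)
  refine (Finset.sum_le_sum fun w _ => h1 w).trans ?_
  rw [Finset.sum_add_distrib, Finset.sum_add_distrib, ← Finset.mul_sum]
  have hsum : ∀ (m : Measure (Fin k → Ed d × ℝ)) (S : Set (Fin k → Ed d × ℝ)),
      MeasurableSet S → ∑ w, m (nxt ⁻¹' {w} ∩ S) = m S := by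
    intro m S hS
    have := sum_measure_preimage_singleton (μ := m.restrict S) Finset.univ fun w _ => hn w
    simp only [Finset.coe_univ, preimage_univ, Measure.restrict_apply_univ] at this
    rw [← this]
    exact Finset.sum_congr rfl fun w _ => (Measure.restrict_apply (hn w)).symm
  refine add_le_add ?_ ?_
  · rw [← lintegral_finsetSum _ fun w _ => measurable_rows_obs ((hn w).inter hGm.compl),
      ← lintegral_const]
    refine lintegral_mono_ae (hs1.mono fun s hs => ?_)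
    simp_rw [fun w => (Measure.map_apply (μ := rows (Ed d) k) (measurable_obs s)
      ((hn w).inter hGm.compl)).symm]
    rw [hsum _ _ hGm.compl, Measure.map_apply (measurable_obs s) hGm.compl]
    refine le_trans (measure_mono fun X hX => ?_) (tail_bound k (by positivity) hs)
    simpa [hG, obs, inner_sub_right] using hX
  · rw [hsum _ _ hGm, Finset.sum_const, Finset.card_univ, nsmul_eq_mul]
    have h3 : Lam (Ed d) k G ≤ (2 ^ 7 * 2⁻¹ ^ t0) ^ k := by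
      refine (good_vol k s1 (by positivity)).trans (le_of_eq ?_)
      rw [← mul_assoc, ENNReal.ofReal_mul (by norm_num), ofReal_half_pow]
      norm_num
    have h4 : (Fintype.card σ : ℝ≥0∞) ≤ 2 ^ (μ1 * k) := by exact_mod_cast hσ
    calc _ ≤ 2 ^ μ1 * B * (2 ^ 7 * 2⁻¹ ^ t0) ^ k + 2 ^ (μ1 * k) * (2⁻¹ ^ e * ρ0 * 2⁻¹ ^ (μ1 * k)) := by
          gcongr
      _ = 2⁻¹ ^ e * ρ0 * (2 ^ (μ1 + 10 * k + 5 * d + 3) * (2 ^ (t0 * k) * 2⁻¹ ^ (t0 * k)) +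
          2 ^ (μ1 * k) * 2⁻¹ ^ (μ1 * k)) := by
          rw [hB, mul_pow, ← pow_mul, ← pow_mul]; ring
      _ ≤ 2⁻¹ ^ e * ρ0 * (2 ^ (μ1 + 10 * k + 5 * d + 3) + 2 ^ (μ1 + 10 * k + 5 * d + 3)) := by
          rw [two_cancel, two_cancel, mul_one]; gcongr; exact one_le_pow₀ one_le_two
      _ = _ := by ring

end Vale.Agent.P309
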